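import Mathlib
import Crest.Prelude.Def_DaugavetL1
import Crest.Agent.Lib.S0166.Helper32Core

/-!
Lower bounds of S0167 (row 125): for a closed subspace `E` of `L¹(P)` whose unit ball is totally
bounded in measure, the averaged midpoint modulus is at least `max (t/2) (t-1)` and the one-sided
modulus at least `max 0 (t-2)` at every unit centre. Neither bound uses the Daugavet property.
-/

set_option autoImplicit false
set_option linter.unusedSectionVars false

namespace Crest.Agent.S0167.Helper28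

open MeasureTheory Crest.AnalysisR Crest.AnalysisR.L1Subspace Crest.Agent.S0166.Helper32

/-! ### The one-sided lower bound (any normed space) -/

/-- In any real normed space, the kernel `F` of a norming functional of the unit vector `x`
satisfies `‖x + t • y‖ - 1 ≥ max 0 (t - 2)` for every unit `y ∈ F`. -/
theorem oneSided_ge_generic {X : Type*} [NormedAddCommGroup X] [NormedSpace ℝ X] (x : X)
    (hx : ‖x‖ = 1) (t : ℝ) (ht : 0 < t) :
    ∃ F : Set X, IsCofG F ∧ ∀ y ∈ F, ‖y‖ = 1 → max 0 (t - 2) ≤ ‖x + t • y‖ - 1 := by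
  obtain ⟨g, hg1, hgx⟩ := exists_dual_vector ℝ x (by rw [hx]; exact one_ne_zero)
  refine ⟨{y : X | g y = 0}, isCofG_ker g, fun y hy hy1 => ?_⟩
  have hgy : g y = 0 := hy
  have h1 : (1 : ℝ) ≤ ‖x + t • y‖ := by
    have h2 : g (x + t • y) = 1 := by
      rw [map_add, map_smul, hgy, hgx, hx]
      simp
    have h3 : g (x + t • y) ≤ ‖g‖ * ‖x + t • y‖ := (le_abs_self _).trans (g.le_opNorm _)
    rw [hg1, one_mul, h2] at h3
    exact h3
  have h4 : t - 1 ≤ ‖x + t • y‖ := by
    have h5 : ‖t • y‖ ≤ ‖x + t • y‖ + ‖x‖ := by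
      have : t • y = (x + t • y) - x := by abel
      calc ‖t • y‖ = ‖(x + t • y) - x‖ := by rw [← this]
        _ ≤ _ := norm_sub_le _ _
    rw [norm_smul, hy1, hx, Real.norm_eq_abs, abs_of_pos ht] at h5
    linarith
  rcases le_total 0 (t - 2) with h | h
  · rw [max_eq_right h]; linarith
  · rw [max_eq_left h]; linarith

/-! ### The sign functional -/

variable {Ω : Type} [MeasurableSpace Ω]

/-- A measurable sign: `1` where `g ≥ 0`, `-1` elsewhere. -/
noncomputable def sgn (g : Ω → ℝ) (z : Ω) : ℝ := if 0 ≤ g z then 1 else -1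

theorem sgn_mul_self (g : Ω → ℝ) (z : Ω) : sgn g z * g z = |g z| := by
  unfold sgn
  split_ifs with h
  · rw [one_mul, abs_of_nonneg h]
  · rw [abs_of_neg (not_le.mp h)]; ring

theorem abs_sgn (g : Ω → ℝ) (z : Ω) : |sgn g z| = 1 := by
  unfold sgn
  split_ifs <;> simp

theorem sgn_mul_ge (g : Ω → ℝ) (z : Ω) (r : ℝ) : -|r| ≤ sgn g z * r := by
  have h1 : |sgn g z * r| = |r| := by rw [abs_mul, abs_sgn, one_mul]
  have := neg_abs_le (sgn g z * r)
  rw [h1] at this
  exact this

theorem sgn_mul_le (g : Ω → ℝ) (z : Ω) (r : ℝ) : sgn g z * r ≤ |r| := by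
  have h1 : |sgn g z * r| = |r| := by rw [abs_mul, abs_sgn, one_mul]
  have := le_abs_self (sgn g z * r)
  rw [h1] at this
  exact this

theorem measurable_sgn {g : Ω → ℝ} (hg : Measurable g) : Measurable (sgn g) := by
  unfold sgn
  exact Measurable.ite (measurableSet_le measurable_const hg) measurable_const measurable_const

theorem integrable_sgn_mul {P : Measure Ω} {g y : Ω → ℝ} (hg : Measurable g)
    (hy : Integrable y P) : Integrable (fun z => sgn g z * y z) P := by
  refine hy.bdd_mul (c := 1) (measurable_sgn hg).aestronglyMeasurable ?_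
  exact Filter.Eventually.of_forall fun z => by rw [Real.norm_eq_abs, abs_sgn]

/-- The continuous linear functional `y ↦ ∫ sgn g * y` on `L¹(P)`. -/
noncomputable def sgnFunctional (P : Measure Ω) (g : Ω → ℝ) (hg : Measurable g) :
    Lp ℝ 1 P →L[ℝ] ℝ :=
  LinearMap.mkContinuous
    { toFun := fun y => ∫ z, sgn g z * (y : Ω → ℝ) z ∂P
      map_add' := by
        intro y y'
        have h1 : (fun z => sgn g z * ((y + y' : Lp ℝ 1 P) : Ω → ℝ) z)
            =ᵐ[P] fun z => sgn g z * (y : Ω → ℝ) z + sgn g z * (y' : Ω → ℝ) z := by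
          filter_upwards [Lp.coeFn_add y y'] with z hz
          rw [hz, Pi.add_apply, mul_add]
        rw [integral_congr_ae h1]
        exact integral_add (integrable_sgn_mul hg (L1.integrable_coeFn y))
          (integrable_sgn_mul hg (L1.integrable_coeFn y'))
      map_smul' := by
        intro c y
        have h1 : (fun z => sgn g z * ((c • y : Lp ℝ 1 P) : Ω → ℝ) z)
            =ᵐ[P] fun z => c * (sgn g z * (y : Ω → ℝ) z) := by
          filter_upwards [Lp.coeFn_smul c y] with z hz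
          rw [hz, Pi.smul_apply, smul_eq_mul]
          ring
        rw [integral_congr_ae h1, integral_const_mul]
        simp }
    1 (by
      intro y
      rw [one_mul]
      show ‖∫ z, sgn g z * (y : Ω → ℝ) z ∂P‖ ≤ ‖y‖
      rw [L1.norm_eq_integral_norm]
      refine (norm_integral_le_integral_norm _).trans ?_
      refine integral_mono_of_nonneg (Filter.Eventually.of_forall fun z => norm_nonneg _)
        (L1.integrable_coeFn y).norm (Filter.Eventually.of_forall fun z => ?_)
      show ‖sgn g z * (y : Ω → ℝ) z‖ ≤ ‖(y : Ω → ℝ) z‖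
      rw [norm_mul, Real.norm_eq_abs, abs_sgn, one_mul])

theorem sgnFunctional_apply (P : Measure Ω) (g : Ω → ℝ) (hg : Measurable g) (y : Lp ℝ 1 P) :
    sgnFunctional P g hg y = ∫ z, sgn g z * (y : Ω → ℝ) z ∂P := rfl

/-! ### The measure argument -/

theorem abs_add_abs_sub (u v : ℝ) : |u + v| + |u - v| = 2 * max |u| |v| := by
  rcases le_total 0 u with hu | hu <;> rcases le_total 0 v with hv | hv <;>
    rcases le_total u v with huv | huv <;> rcases le_total (u + v) 0 with hs | hs <;>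
    simp only [abs_of_nonneg, abs_of_nonpos, hu, hv, hs, sub_nonneg, sub_nonpos, huv,
      max_def] <;> split_ifs <;> linarith

/-- The heart of the measure argument, for functions. -/
theorem key_bound {P : Measure Ω} [IsProbabilityMeasure P] {x y g : Ω → ℝ}
    (hx : Integrable x P) (hy : Integrable y P) (hym : Measurable y) (hgm : Measurable g)
    (hx1 : ∫ z, |x z| ∂P = 1) (hy1 : ∫ z, |y z| ∂P = 1)
    (hφ : ∫ z, sgn g z * y z ∂P = 0) {a t : ℝ} (ha : 0 < a) (ht : 0 ≤ t) :
    1 + t * (1 / 2 - a) - ∫ z in {z | a < |y z - g z|}, |x z| ∂P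
      ≤ ∫ z, max (|x z|) (t * |y z|) ∂P := by
  set A : Set Ω := {z | a < |y z - g z|} with hA_def
  have hA : MeasurableSet A := measurableSet_lt measurable_const (hym.sub hgm).abs
  have hyA : Integrable (A.indicator fun z => |y z|) P := hy.abs.indicator hA
  have hxA : Integrable (A.indicator fun z => |x z|) P := hx.abs.indicator hA
  -- Step 1: `∫_A |y| ≥ 1/2 - a`.
  have h1 : ∀ z, |y z| - 2 * a - 2 * A.indicator (fun z => |y z|) z ≤ sgn g z * y z := by
    intro z
    by_cases hz : z ∈ A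
    · rw [Set.indicator_of_mem hz]
      have := sgn_mul_ge g z (y z)
      linarith
    · rw [Set.indicator_of_notMem hz]
      have hz' : |y z - g z| ≤ a := not_lt.mp hz
      have h2 : sgn g z * y z = |g z| + sgn g z * (y z - g z) := by
        rw [← sgn_mul_self g z]; ring
      have h3 := sgn_mul_ge g z (y z - g z)
      have h4 : |y z| ≤ |g z| + |y z - g z| := by
        have : y z = g z + (y z - g z) := by ring
        calc |y z| = |g z + (y z - g z)| := by rw [← this]
          _ ≤ _ := abs_add_le _ _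
      linarith
  have hint1 : Integrable (fun z => |y z| - 2 * a - 2 * A.indicator (fun z => |y z|) z) P :=
    (hy.abs.sub (integrable_const _)).sub (hyA.const_mul 2)
  have h5 : ∫ z, (|y z| - 2 * a - 2 * A.indicator (fun z => |y z|) z) ∂P
      ≤ ∫ z, sgn g z * y z ∂P :=
    integral_mono hint1 (integrable_sgn_mul hgm hy) h1
  have h6 : ∫ z, (|y z| - 2 * a - 2 * A.indicator (fun z => |y z|) z) ∂P
      = 1 - 2 * a - 2 * ∫ z in A, |y z| ∂P := by
    have i1 : Integrable (fun z => |y z|) P := hy.abs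
    have i2 : Integrable (fun _ : Ω => 2 * a) P := integrable_const _
    have i3 : Integrable (fun z => |y z| - 2 * a) P := i1.sub i2
    have i4 : Integrable (fun z => 2 * A.indicator (fun z => |y z|) z) P := hyA.const_mul 2
    have e1 : ∫ z, 2 * A.indicator (fun z => |y z|) z ∂P = 2 * ∫ z in A, |y z| ∂P := by
      rw [integral_const_mul, integral_indicator hA]
    have e2 : ∫ _z : Ω, 2 * a ∂P = 2 * a := by simp
    rw [integral_sub i3 i4, integral_sub i1 i2, e1, e2, hy1]
  have hyA_ge : 1 / 2 - a ≤ ∫ z in A, |y z| ∂P := by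
    rw [h6, hφ] at h5
    linarith
  -- Step 2.
  have h7 : ∀ z, |x z| + (t * A.indicator (fun z => |y z|) z - A.indicator (fun z => |x z|) z)
      ≤ max (|x z|) (t * |y z|) := by
    intro z
    by_cases hz : z ∈ A
    · rw [Set.indicator_of_mem hz, Set.indicator_of_mem hz]
      have := le_max_right (|x z|) (t * |y z|)
      linarith
    · rw [Set.indicator_of_notMem hz, Set.indicator_of_notMem hz]
      have := le_max_left (|x z|) (t * |y z|)
      linarith
  have hmax : Integrable (fun z => max (|x z|) (t * |y z|)) P := by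
    refine Integrable.mono' (hx.abs.add (hy.abs.const_mul t)) ?_ ?_
    · exact (hx.aestronglyMeasurable.norm.aemeasurable.max
        ((hy.aestronglyMeasurable.norm.aemeasurable).const_mul t)).aestronglyMeasurable
    · refine Filter.Eventually.of_forall fun z => ?_
      have h8 : 0 ≤ t * |y z| := mul_nonneg ht (abs_nonneg _)
      rw [Real.norm_eq_abs, abs_of_nonneg (le_max_of_le_left (abs_nonneg _))]
      exact max_le (by simp only [Pi.add_apply]; linarith [abs_nonneg (x z)])
        (by simp only [Pi.add_apply]; linarith [abs_nonneg (x z)])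
  have hint2 : Integrable (fun z => |x z| + (t * A.indicator (fun z => |y z|) z
      - A.indicator (fun z => |x z|) z)) P :=
    hx.abs.add ((hyA.const_mul t).sub hxA)
  have h9 := integral_mono hint2 hmax h7
  have h10 : ∫ z, (|x z| + (t * A.indicator (fun z => |y z|) z
      - A.indicator (fun z => |x z|) z)) ∂P
      = 1 + (t * ∫ z in A, |y z| ∂P - ∫ z in A, |x z| ∂P) := by
    have i1 : Integrable (fun z => |x z|) P := hx.abs
    have i2 : Integrable (fun z => t * A.indicator (fun z => |y z|) z) P := hyA.const_mul t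
    have i3 : Integrable (fun z => A.indicator (fun z => |x z|) z) P := hxA
    have i4 : Integrable (fun z => t * A.indicator (fun z => |y z|) z
        - A.indicator (fun z => |x z|) z) P := i2.sub i3
    have e1 : ∫ z, t * A.indicator (fun z => |y z|) z ∂P = t * ∫ z in A, |y z| ∂P := by
      rw [integral_const_mul, integral_indicator hA]
    have e2 : ∫ z, A.indicator (fun z => |x z|) z ∂P = ∫ z in A, |x z| ∂P :=
      integral_indicator hA
    rw [integral_add i1 i4, integral_sub i2 i3, e1, e2, hx1]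
  rw [h10] at h9
  have h11 : t * (1 / 2 - a) ≤ t * ∫ z in A, |y z| ∂P := mul_le_mul_of_nonneg_left hyA_ge ht
  linarith

/-- The average of the two norms as an integral of a maximum. -/
theorem avg_norm_eq {P : Measure Ω} (x y : Lp ℝ 1 P) {t : ℝ} (ht : 0 ≤ t) :
    (‖x + t • y‖ + ‖x - t • y‖) / 2
      = ∫ z, max (|(x : Ω → ℝ) z|) (t * |(y : Ω → ℝ) z|) ∂P := by
  have h1 : ‖x + t • y‖ = ∫ z, |(x : Ω → ℝ) z + t * (y : Ω → ℝ) z| ∂P := by
    rw [L1.norm_eq_integral_norm]
    refine integral_congr_ae ?_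
    filter_upwards [Lp.coeFn_add x (t • y), Lp.coeFn_smul t y] with z hz1 hz2
    rw [hz1, Pi.add_apply, hz2, Pi.smul_apply, smul_eq_mul, Real.norm_eq_abs]
  have h2 : ‖x - t • y‖ = ∫ z, |(x : Ω → ℝ) z - t * (y : Ω → ℝ) z| ∂P := by
    rw [L1.norm_eq_integral_norm]
    refine integral_congr_ae ?_
    filter_upwards [Lp.coeFn_sub x (t • y), Lp.coeFn_smul t y] with z hz1 hz2
    rw [hz1, Pi.sub_apply, hz2, Pi.smul_apply, smul_eq_mul, Real.norm_eq_abs]
  have hx : Integrable (x : Ω → ℝ) P := L1.integrable_coeFn x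
  have hy : Integrable (y : Ω → ℝ) P := L1.integrable_coeFn y
  have i1 : Integrable (fun z => |(x : Ω → ℝ) z + t * (y : Ω → ℝ) z|) P :=
    (hx.add (hy.const_mul t)).abs
  have i2 : Integrable (fun z => |(x : Ω → ℝ) z - t * (y : Ω → ℝ) z|) P :=
    (hx.sub (hy.const_mul t)).abs
  rw [h1, h2, ← integral_add i1 i2, ← integral_div]
  refine integral_congr_ae (Filter.Eventually.of_forall fun z => ?_)
  show (|(x : Ω → ℝ) z + t * (y : Ω → ℝ) z| + |(x : Ω → ℝ) z - t * (y : Ω → ℝ) z|) / 2 = _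
  rw [abs_add_abs_sub, abs_mul, abs_of_nonneg ht]
  ring

/-- Absolute continuity of the integral of `|x|`. -/
theorem exists_delta_setIntegral_abs_le {P : Measure Ω} (x : Lp ℝ 1 P) {η : ℝ} (hη : 0 < η) :
    ∃ δ : ℝ, 0 < δ ∧ ∀ s : Set Ω, MeasurableSet s → P s ≤ ENNReal.ofReal δ →
      ∫ z in s, |(x : Ω → ℝ) z| ∂P ≤ η := by
  obtain ⟨δ, hδ, h⟩ := (Lp.memLp x).eLpNorm_indicator_le le_rfl ENNReal.one_ne_top hη
  refine ⟨δ, hδ, fun s hs hPs => ?_⟩
  have h1 := h s hs hPs
  rw [eLpNorm_one_eq_lintegral_enorm] at h1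
  have h2 : ∫ z in s, |(x : Ω → ℝ) z| ∂P
      = (∫⁻ z, ‖s.indicator (x : Ω → ℝ) z‖ₑ ∂P).toReal := by
    rw [← integral_indicator hs, ← integral_norm_eq_lintegral_enorm
      ((Lp.aestronglyMeasurable x).indicator hs)]
    refine integral_congr_ae (Filter.Eventually.of_forall fun z => ?_)
    show s.indicator (fun z => |(x : Ω → ℝ) z|) z = ‖s.indicator (x : Ω → ℝ) z‖
    rw [norm_indicator_eq_indicator_norm]
    rfl
  rw [h2]
  exact ENNReal.toReal_le_of_le_ofReal hη.le h1

/-- Plain form of the midpoint lower bound. -/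
theorem midpoint_ge_plain (P : Measure Ω) [IsProbabilityMeasure P]
    (E : Submodule ℝ (Lp ℝ 1 P)) (htb : UnitBallTotallyBoundedInMeasure P E)
    (t : ℝ) (ht : 0 < t) (x : E) (hx : ‖x‖ = 1) (η : ℝ) (hη : 0 < η) :
    ∃ F : Set E, IsCofG F ∧ ∀ y ∈ F, ‖y‖ = 1 →
      max (t / 2) (t - 1) - η ≤ (‖x + t • y‖ + ‖x - t • y‖) / 2 - 1 := by
  classical
  obtain ⟨δ, hδ, hac⟩ := exists_delta_setIntegral_abs_le (x : Lp ℝ 1 P) (half_pos hη)
  set ε : ℝ := min δ (η / (2 * t)) with hε_def
  have hε : 0 < ε := lt_min hδ (by positivity)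
  obtain ⟨s, hs, hnet⟩ := htb ε hε
  let φ : s → E →L[ℝ] ℝ := fun g =>
    (sgnFunctional P ((g : Lp ℝ 1 P) : Ω → ℝ) (Lp.stronglyMeasurable _).measurable).comp
      E.subtypeL
  refine ⟨{y : E | ∀ g : s, φ g y = 0}, isCofG_iInter_ker φ, fun y hyF hy1 => ?_⟩
  -- the trivial bound
  have htriv : t - 1 ≤ (‖x + t • y‖ + ‖x - t • y‖) / 2 - 1 := by
    have h1 : ‖(2 * t) • y‖ ≤ ‖x + t • y‖ + ‖x - t • y‖ := by
      have : (2 * t) • y = (x + t • y) - (x - t • y) := by
        rw [mul_smul, two_smul]; abel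
      rw [this]
      exact norm_sub_le _ _
    rw [norm_smul, hy1, Real.norm_eq_abs, abs_of_pos (by positivity)] at h1
    linarith
  -- the measure bound
  have hmeas : t / 2 - η ≤ (‖x + t • y‖ + ‖x - t • y‖) / 2 - 1 := by
    have hy1' : ‖(y : Lp ℝ 1 P)‖ = 1 := hy1
    have hx1' : ‖(x : Lp ℝ 1 P)‖ = 1 := hx
    obtain ⟨g, hgs, hdist⟩ := hnet (y : Lp ℝ 1 P) y.2 hy1'.le
    unfold measureDist at hdist
    have hne : {a : ℝ | 0 < a ∧ P {z | a < |((y : Lp ℝ 1 P) : Ω → ℝ) z - (g : Ω → ℝ) z|}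
        < ENNReal.ofReal a}.Nonempty := by
      refine ⟨2, by norm_num, lt_of_le_of_lt prob_le_one ?_⟩
      rw [ENNReal.lt_ofReal_iff_toReal_lt ENNReal.one_ne_top]
      norm_num
    obtain ⟨a, ⟨ha0, haP⟩, haε⟩ := exists_lt_of_csInf_lt hne hdist
    have hφ : ∫ z, sgn (g : Ω → ℝ) z * ((y : Lp ℝ 1 P) : Ω → ℝ) z ∂P = 0 := hyF ⟨g, hgs⟩
    have hxi : ∫ z, |((x : Lp ℝ 1 P) : Ω → ℝ) z| ∂P = 1 := by
      rw [← hx1', L1.norm_eq_integral_norm]; rfl
    have hyi : ∫ z, |((y : Lp ℝ 1 P) : Ω → ℝ) z| ∂P = 1 := by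
      rw [← hy1', L1.norm_eq_integral_norm]; rfl
    have hkey := key_bound (P := P) (L1.integrable_coeFn (x : Lp ℝ 1 P))
      (L1.integrable_coeFn (y : Lp ℝ 1 P)) (Lp.stronglyMeasurable _).measurable
      (Lp.stronglyMeasurable g).measurable hxi hyi hφ ha0 ht.le
    have hA : MeasurableSet {z | a < |((y : Lp ℝ 1 P) : Ω → ℝ) z - (g : Ω → ℝ) z|} :=
      measurableSet_lt measurable_const
        (((Lp.stronglyMeasurable _).measurable.sub (Lp.stronglyMeasurable g).measurable).abs)
    have hPA : P {z | a < |((y : Lp ℝ 1 P) : Ω → ℝ) z - (g : Ω → ℝ) z|} ≤ ENNReal.ofReal δ :=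
      haP.le.trans (ENNReal.ofReal_le_ofReal (haε.le.trans (min_le_left _ _)))
    have hxA := hac _ hA hPA
    have hta : t * a ≤ η / 2 := by
      have h1 : a ≤ η / (2 * t) := haε.le.trans (min_le_right _ _)
      calc t * a ≤ t * (η / (2 * t)) := mul_le_mul_of_nonneg_left h1 ht.le
        _ = η / 2 := by field_simp
    have havg := avg_norm_eq (x : Lp ℝ 1 P) (y : Lp ℝ 1 P) ht.le
    have hco : (‖x + t • y‖ + ‖x - t • y‖) / 2
        = (‖(x : Lp ℝ 1 P) + t • (y : Lp ℝ 1 P)‖ + ‖(x : Lp ℝ 1 P) - t • (y : Lp ℝ 1 P)‖) / 2 :=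
      rfl
    rw [hco, havg]
    linarith
  rcases le_total (t / 2) (t - 1) with h | h
  · rw [max_eq_right h]; linarith
  · rw [max_eq_left h]; linarith

/-! ### The statements in the shape of S0167 -/

/-- `MidpointModulusGE` part of S0167. -/
theorem midpoint_ge (P : Measure Ω) [IsProbabilityMeasure P] (E : Submodule ℝ (Lp ℝ 1 P))
    (hcl : IsClosed (E : Set (Lp ℝ 1 P))) (htb : UnitBallTotallyBoundedInMeasure P E)
    (t : ℝ) (ht : 0 < t) :
    (toRealBanach P E hcl).MidpointModulusGE (toRealBanach P E hcl).norm t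
      (max (t / 2) (t - 1)) :=
  fun x hx η hη => midpoint_ge_plain P E htb t ht x hx η hη

/-- `OneSidedModulusGE` part of S0167. -/
theorem oneSided_ge (P : Measure Ω) (E : Submodule ℝ (Lp ℝ 1 P))
    (hcl : IsClosed (E : Set (Lp ℝ 1 P))) (t : ℝ) (ht : 0 < t) :
    (toRealBanach P E hcl).OneSidedModulusGE (toRealBanach P E hcl).norm t (max 0 (t - 2)) := by
  intro x hx η hη
  obtain ⟨F, hF, h⟩ := oneSided_ge_generic (X := E) x hx t ht
  exact ⟨F, hF, fun y hy hy1 => le_trans (sub_le_self _ hη.le) (h y hy hy1)⟩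

end Crest.Agent.S0167.Helper28
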