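import Mathlib
import Crest.Prelude.Def_DaugavetL1
import Crest.Agent.Lib.S0166.Helper32Core

set_option autoImplicit false

namespace Crest.Agent.S0167.Helper29

open Crest.AnalysisR.L1Subspace

variable {V : Type*} [NormedAddCommGroup V] [NormedSpace ℝ V]

/-- A space with the Daugavet property is nontrivial. -/
theorem daugavet_nontrivial (hD : HasDaugavetProperty V) : ∃ v : V, v ≠ 0 := by
  by_contra h
  simp only [ne_eq, not_exists, not_not] at h
  have h1 := hD 0 0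
  have h2 : (ContinuousLinearMap.id ℝ V + (0 : V →L[ℝ] ℝ).smulRight (0 : V)) = 0 := by
    ext x
    simp [h x]
  rw [h2] at h1
  simp at h1

/-- Unit form of the Daugavet slice lemma. -/
theorem daugavet_slice_unit (hD : HasDaugavetProperty V) (φ : V →L[ℝ] ℝ) (hφ : ‖φ‖ = 1)
    (v : V) (hv : ‖v‖ = 1) (ε : ℝ) (hε : 0 < ε) :
    ∃ u : V, ‖u‖ ≤ 1 ∧ 1 - ε < φ u ∧ 2 - ε < ‖u + v‖ := by
  have h1 := hD φ v
  rw [ContinuousLinearMap.norm_smulRight_apply, hφ, hv] at h1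
  have h2 : 2 - ε / 2 < ‖ContinuousLinearMap.id ℝ V + φ.smulRight v‖ := by rw [h1]; linarith
  obtain ⟨u, hu1, hu2⟩ := ContinuousLinearMap.exists_lt_apply_of_lt_opNorm _ h2
  have key : ∀ u : V, ‖u‖ < 1 → 0 ≤ φ u → 2 - ε / 2 < ‖u + φ u • v‖ →
      ∃ u : V, ‖u‖ ≤ 1 ∧ 1 - ε < φ u ∧ 2 - ε < ‖u + v‖ := by
    intro u hu1 hpos hu2
    refine ⟨u, hu1.le, ?_, ?_⟩
    · have h3 : ‖u + φ u • v‖ ≤ ‖u‖ + φ u := by
        calc ‖u + φ u • v‖ ≤ ‖u‖ + ‖φ u • v‖ := norm_add_le _ _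
          _ = ‖u‖ + φ u := by rw [norm_smul, hv, mul_one, Real.norm_eq_abs, abs_of_nonneg hpos]
      linarith
    · have h3 : ‖u + φ u • v‖ ≤ ‖u‖ + φ u := by
        calc ‖u + φ u • v‖ ≤ ‖u‖ + ‖φ u • v‖ := norm_add_le _ _
          _ = ‖u‖ + φ u := by rw [norm_smul, hv, mul_one, Real.norm_eq_abs, abs_of_nonneg hpos]
      have h4 : φ u ≤ 1 := by
        have := φ.le_opNorm u
        rw [hφ, one_mul] at this
        have h5 := le_abs_self (φ u)
        rw [← Real.norm_eq_abs] at h5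
        linarith
      have h6 : u + φ u • v = (u + v) - (1 - φ u) • v := by
        rw [sub_smul, one_smul]; abel
      have h7 : ‖u + φ u • v‖ ≤ ‖u + v‖ + (1 - φ u) := by
        rw [h6]
        calc ‖(u + v) - (1 - φ u) • v‖ ≤ ‖u + v‖ + ‖(1 - φ u) • v‖ := norm_sub_le _ _
          _ = ‖u + v‖ + (1 - φ u) := by
            rw [norm_smul, hv, mul_one, Real.norm_eq_abs, abs_of_nonneg (by linarith)]
      linarith
  have hu2' : 2 - ε / 2 < ‖u + φ u • v‖ := by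
    simpa using hu2
  rcases le_total 0 (φ u) with hpos | hneg
  · exact key u hu1 hpos hu2'
  · refine key (-u) (by simpa using hu1) (by simpa using hneg) ?_
    have : -u + φ (-u) • v = -(u + φ u • v) := by
      simp only [map_neg, neg_smul]; abel
    rw [this, norm_neg]
    exact hu2'

/-- Every vector is a nonnegative multiple of a unit vector (in a nontrivial space). -/
theorem exists_unit_smul (hne : ∃ v : V, v ≠ 0) (w : V) :
    ∃ v : V, ‖v‖ = 1 ∧ w = ‖w‖ • v := by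
  by_cases hw : w = 0
  · obtain ⟨v0, hv0⟩ := hne
    refine ⟨‖v0‖⁻¹ • v0, ?_, ?_⟩
    · rw [norm_smul, norm_inv, norm_norm, inv_mul_cancel₀ (norm_ne_zero_iff.mpr hv0)]
    · simp [hw]
  · refine ⟨‖w‖⁻¹ • w, ?_, ?_⟩
    · rw [norm_smul, norm_inv, norm_norm, inv_mul_cancel₀ (norm_ne_zero_iff.mpr hw)]
    · rw [smul_smul, mul_inv_cancel₀ (norm_ne_zero_iff.mpr hw), one_smul]

/-- Scaling step: from `‖u + v‖ > 2 - ε'` to `‖a • v + u‖ ≥ a + 1 - max a 1 * ε'`. -/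
theorem norm_smul_add_ge (u v : V) (hu : ‖u‖ ≤ 1) (hv : ‖v‖ = 1) (a ε' : ℝ) (ha : 0 ≤ a)
    (h : 2 - ε' < ‖u + v‖) : a + 1 - max a 1 * ε' ≤ ‖a • v + u‖ := by
  rcases le_total a 1 with h1 | h1
  · rw [max_eq_right h1, one_mul]
    have e : u + v = (a • v + u) + (1 - a) • v := by
      rw [sub_smul, one_smul]; abel
    have h2 : ‖u + v‖ ≤ ‖a • v + u‖ + (1 - a) := by
      rw [e]
      calc ‖(a • v + u) + (1 - a) • v‖ ≤ ‖a • v + u‖ + ‖(1 - a) • v‖ := norm_add_le _ _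
        _ = ‖a • v + u‖ + (1 - a) := by
          rw [norm_smul, hv, mul_one, Real.norm_eq_abs, abs_of_nonneg (by linarith)]
    linarith
  · rw [max_eq_left h1]
    have ha0 : 0 < a := by linarith
    have e : u + v = a⁻¹ • (a • v + u) + (1 - a⁻¹) • u := by
      rw [smul_add, smul_smul, inv_mul_cancel₀ ha0.ne', one_smul, sub_smul, one_smul]; abel
    have hinv : a⁻¹ ≤ 1 := inv_le_one_of_one_le₀ h1
    have h2 : ‖u + v‖ ≤ a⁻¹ * ‖a • v + u‖ + (1 - a⁻¹) := by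
      rw [e]
      calc ‖a⁻¹ • (a • v + u) + (1 - a⁻¹) • u‖
          ≤ ‖a⁻¹ • (a • v + u)‖ + ‖(1 - a⁻¹) • u‖ := norm_add_le _ _
        _ = a⁻¹ * ‖a • v + u‖ + (1 - a⁻¹) * ‖u‖ := by
          rw [norm_smul, norm_smul, Real.norm_eq_abs, Real.norm_eq_abs,
            abs_of_nonneg (inv_nonneg.mpr ha), abs_of_nonneg (by linarith)]
        _ ≤ a⁻¹ * ‖a • v + u‖ + (1 - a⁻¹) := by
          have : (1 - a⁻¹) * ‖u‖ ≤ (1 - a⁻¹) * 1 :=
            mul_le_mul_of_nonneg_left hu (by linarith)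
          linarith
    have h3 : 2 - ε' < a⁻¹ * ‖a • v + u‖ + (1 - a⁻¹) := lt_of_lt_of_le h h2
    have h4 : a * (2 - ε') < a * (a⁻¹ * ‖a • v + u‖ + (1 - a⁻¹)) :=
      mul_lt_mul_of_pos_left h3 ha0
    have h5 : a * (a⁻¹ * ‖a • v + u‖ + (1 - a⁻¹)) = ‖a • v + u‖ + a - 1 := by
      field_simp
      ring
    rw [h5] at h4
    linarith

/-- General Daugavet slice lemma: every slice of the unit ball contains a point `u` with
`‖w + u‖ ≥ ‖w‖ + 1 - ε`, for every vector `w`. -/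
theorem daugavet_slice (hD : HasDaugavetProperty V) (ψ : V →L[ℝ] ℝ) (w : V) (α ε : ℝ)
    (hα : 0 < α) (hε : 0 < ε) :
    ∃ u : V, ‖u‖ ≤ 1 ∧ ‖ψ‖ - α < ψ u ∧ ‖w‖ + 1 - ε ≤ ‖w + u‖ := by
  obtain ⟨v, hv, hwv⟩ := exists_unit_smul (daugavet_nontrivial hD) w
  by_cases hψ : ψ = 0
  · refine ⟨v, hv.le, by simp [hψ, hα], ?_⟩
    have : w + v = (‖w‖ + 1) • v := by
      rw [add_smul, one_smul, ← hwv]
    rw [this, norm_smul, hv, mul_one, Real.norm_eq_abs,
      abs_of_nonneg (by positivity)]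
    linarith
  · have hψn : 0 < ‖ψ‖ := norm_pos_iff.mpr hψ
    set φ : V →L[ℝ] ℝ := ‖ψ‖⁻¹ • ψ with hφdef
    have hφ : ‖φ‖ = 1 := by
      rw [hφdef, norm_smul, norm_inv, norm_norm, inv_mul_cancel₀ hψn.ne']
    set a := ‖w‖ with ha
    have ha0 : 0 ≤ a := norm_nonneg _
    set ε' := min (ε / max a 1) (α / ‖ψ‖) with hε'
    have hmax : 0 < max a 1 := lt_of_lt_of_le one_pos (le_max_right _ _)
    have hε'pos : 0 < ε' := lt_min (div_pos hε hmax) (div_pos hα hψn)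
    obtain ⟨u, hu1, hu2, hu3⟩ := daugavet_slice_unit hD φ hφ v hv ε' hε'pos
    refine ⟨u, hu1, ?_, ?_⟩
    · have h1 : φ u = ‖ψ‖⁻¹ * ψ u := by simp [hφdef]
      have h2 : ε' ≤ α / ‖ψ‖ := min_le_right _ _
      have h3 : 1 - α / ‖ψ‖ < ‖ψ‖⁻¹ * ψ u := by rw [← h1]; linarith
      have h4 : ‖ψ‖ * (1 - α / ‖ψ‖) < ‖ψ‖ * (‖ψ‖⁻¹ * ψ u) := mul_lt_mul_of_pos_left h3 hψn
      have h5 : ‖ψ‖ * (1 - α / ‖ψ‖) = ‖ψ‖ - α := by field_simp
      have h6 : ‖ψ‖ * (‖ψ‖⁻¹ * ψ u) = ψ u := by field_simp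
      linarith
    · have h1 := norm_smul_add_ge u v hu1 hv a ε' ha0 hu3
      have h2 : max a 1 * ε' ≤ ε := by
        have : ε' ≤ ε / max a 1 := min_le_left _ _
        calc max a 1 * ε' ≤ max a 1 * (ε / max a 1) := mul_le_mul_of_nonneg_left this hmax.le
          _ = ε := by field_simp
      have h3 : w + u = a • v + u := by rw [← hwv]
      rw [h3]
      linarith

/-- Iterated slice lemma: points `z i` chosen in prescribed slices of the unit ball with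
`‖w - ∑ lam i • z i‖ ≥ ‖w‖ + (1 - ε) * ∑ lam i`. -/
theorem daugavet_iter (hD : HasDaugavetProperty V) {ι : Type} [DecidableEq ι] (t : Finset ι)
    (lam : ι → ℝ) (ψ : ι → V →L[ℝ] ℝ) (α : ℝ) (hα : 0 < α) (ε : ℝ) (hε : 0 < ε)
    (hlam : ∀ i ∈ t, 0 ≤ lam i) (w : V) :
    ∃ z : ι → V, (∀ i ∈ t, ‖z i‖ ≤ 1 ∧ ‖ψ i‖ - α < ψ i (z i)) ∧
      ‖w‖ + (1 - ε) * ∑ i ∈ t, lam i ≤ ‖w - ∑ i ∈ t, lam i • z i‖ := by
  induction t using Finset.induction_on with
  | empty => exact ⟨fun _ => 0, by simp, by simp⟩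
  | insert j t hj ih =>
    obtain ⟨z, hz1, hz2⟩ := ih (fun i hi => hlam i (Finset.mem_insert_of_mem hi))
    have hlj : 0 ≤ lam j := hlam j (Finset.mem_insert_self j t)
    set w' := w - ∑ i ∈ t, lam i • z i with hw'
    -- choose the new point
    have hstep : ∃ u : V, ‖u‖ ≤ 1 ∧ ‖ψ j‖ - α < ψ j u ∧
        ‖w'‖ + (1 - ε) * lam j ≤ ‖w' - lam j • u‖ := by
      rcases hlj.eq_or_lt with h0 | hpos
      · obtain ⟨u, hu1, hu2, -⟩ := daugavet_slice hD (ψ j) 0 α 1 hα one_pos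
        exact ⟨u, hu1, hu2, by simp [← h0]⟩
      · obtain ⟨u, hu1, hu2, hu3⟩ := daugavet_slice hD (-(ψ j)) ((lam j)⁻¹ • w') α ε hα hε
        refine ⟨-u, by simpa using hu1, ?_, ?_⟩
        · have : ψ j (-u) = (-(ψ j)) u := by simp
          rw [this]
          simpa using hu2
        · have e : w' - lam j • (-u) = lam j • ((lam j)⁻¹ • w' + u) := by
            rw [smul_add, smul_smul, mul_inv_cancel₀ hpos.ne', one_smul, smul_neg, sub_neg_eq_add]
          rw [e, norm_smul, Real.norm_eq_abs, abs_of_pos hpos]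
          rw [norm_smul, norm_inv, Real.norm_eq_abs, abs_of_pos hpos] at hu3
          have h1 : lam j * ((lam j)⁻¹ * ‖w'‖ + 1 - ε) ≤ lam j * ‖(lam j)⁻¹ • w' + u‖ :=
            mul_le_mul_of_nonneg_left hu3 hpos.le
          have h2 : lam j * ((lam j)⁻¹ * ‖w'‖ + 1 - ε) = ‖w'‖ + (1 - ε) * lam j := by
            field_simp
            ring
          linarith
    obtain ⟨u, hu1, hu2, hu3⟩ := hstep
    refine ⟨Function.update z j u, ?_, ?_⟩
    · intro i hi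
      rcases Finset.mem_insert.mp hi with rfl | hi'
      · simp [hu1, hu2]
      · have hne : i ≠ j := fun h => hj (h ▸ hi')
        rw [Function.update_of_ne hne]
        exact hz1 i hi'
    · rw [Finset.sum_insert hj, Finset.sum_insert hj]
      have hsum : ∑ i ∈ t, lam i • Function.update z j u i = ∑ i ∈ t, lam i • z i := by
        apply Finset.sum_congr rfl
        intro i hi
        have hne : i ≠ j := fun h => hj (h ▸ hi)
        rw [Function.update_of_ne hne]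
      rw [hsum, Function.update_self]
      have e : w - (lam j • u + ∑ i ∈ t, lam i • z i) = w' - lam j • u := by
        rw [hw']; abel
      rw [e]
      have : (1 - ε) * (lam j + ∑ i ∈ t, lam i) = (1 - ε) * lam j + (1 - ε) * ∑ i ∈ t, lam i := by
        ring
      linarith

section Geometry

variable {G : Type} [NormedAddCommGroup G]

/-- A point of a set at which the distance from some centre is maximal. -/
def IsFarthest (K : Set G) (e : G) : Prop :=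
  e ∈ K ∧ ∃ c : G, ∀ y ∈ K, ‖y - c‖ ≤ ‖e - c‖

theorem exists_farthest (K : Set G) (hK : IsCompact K) (hne : K.Nonempty) (c : G) :
    ∃ e ∈ K, ∀ y ∈ K, ‖y - c‖ ≤ ‖e - c‖ := by
  obtain ⟨e, he, hmax⟩ := hK.exists_isMaxOn hne
    (f := fun y => ‖y - c‖) (by fun_prop)
  exact ⟨e, he, fun y hy => hmax hy⟩

variable [InnerProductSpace ℝ G]

/-- Slices at a farthest point are small. -/
theorem farthest_slice_small (K : Set G) (e c : G) (hmax : ∀ y ∈ K, ‖y - c‖ ≤ ‖e - c‖)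
    (k : G) (hk : k ∈ K) (α : ℝ)
    (hslice : inner ℝ e (e - c) - α ≤ inner ℝ k (e - c)) : ‖k - e‖ ^ 2 ≤ 2 * α := by
  have h1 : k - e = (k - c) - (e - c) := by abel
  have h2 : ‖k - e‖ ^ 2 = ‖k - c‖ ^ 2 - 2 * inner ℝ (k - c) (e - c) + ‖e - c‖ ^ 2 := by
    rw [h1, norm_sub_sq_real]
  have h3 : ‖k - c‖ ^ 2 ≤ ‖e - c‖ ^ 2 := by
    have := hmax k hk
    exact pow_le_pow_left₀ (norm_nonneg _) this 2
  have h4 : inner ℝ (k - c) (e - c) = inner ℝ k (e - c) - inner ℝ c (e - c) := by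
    rw [inner_sub_left]
  have h5 : inner ℝ e (e - c) - inner ℝ c (e - c) = ‖e - c‖ ^ 2 := by
    rw [← inner_sub_left, real_inner_self_eq_norm_sq]
  nlinarith

variable [FiniteDimensional ℝ G]

/-- A compact convex set is contained in the closed convex hull of its farthest points. -/
theorem mem_closure_convexHull_farthest (K : Set G) (hK : IsCompact K) (p : G) (hp : p ∈ K) :
    p ∈ closure (convexHull ℝ {e | IsFarthest K e}) := by
  by_contra hnot
  have hconv : Convex ℝ (closure (convexHull ℝ {e | IsFarthest K e})) :=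
    (convex_convexHull ℝ _).closure
  obtain ⟨f, τ, hf1, hf2⟩ := geometric_hahn_banach_closed_point hconv isClosed_closure hnot
  set g : G := (InnerProductSpace.toDual ℝ G).symm f with hg
  have hfg : ∀ y : G, f y = inner ℝ g y := by
    intro y
    rw [hg, InnerProductSpace.toDual_symm_apply]
  obtain ⟨M, hM⟩ := hK.isBounded.exists_norm_le
  set ρ : ℝ := M ^ 2 / (2 * (f p - τ)) + 1 with hρ
  have hgap : 0 < f p - τ := by linarith
  have hρpos : 0 < ρ := by positivity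
  obtain ⟨e, heK, hemax⟩ := exists_farthest K hK ⟨p, hp⟩ (-(ρ • g))
  have heD : e ∈ closure (convexHull ℝ {e | IsFarthest K e}) :=
    subset_closure (subset_convexHull ℝ _ ⟨heK, -(ρ • g), hemax⟩)
  have h1 : f e < τ := hf1 e heD
  have h2 := hemax p hp
  have h3 : ‖p - -(ρ • g)‖ ^ 2 ≤ ‖e - -(ρ • g)‖ ^ 2 := pow_le_pow_left₀ (norm_nonneg _) h2 2
  rw [sub_neg_eq_add, sub_neg_eq_add, norm_add_sq_real, norm_add_sq_real] at h3
  rw [inner_smul_right, inner_smul_right, real_inner_comm g p, real_inner_comm g e,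
    ← hfg, ← hfg] at h3
  have h4 : ‖e‖ ^ 2 ≤ M ^ 2 := pow_le_pow_left₀ (norm_nonneg _) (hM e heK) 2
  have h5 : 0 ≤ ‖p‖ ^ 2 := by positivity
  have h6 : 2 * ρ * (f p - τ) ≤ M ^ 2 := by nlinarith
  have h7 : 2 * ρ * (f p - τ) = M ^ 2 + 2 * (f p - τ) := by
    rw [hρ]; field_simp
  linarith

/-- Approximation of a point of a bounded convex set by convex combinations of points in
small slices. -/
theorem exists_small_slices (K : Set G) (hb : Bornology.IsBounded K)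
    (p : G) (hp : p ∈ K) (δ : ℝ) (hδ : 0 < δ) :
    ∃ (ι : Type) (_ : Fintype ι) (lam : ι → ℝ) (d : ι → G),
      (∀ i, 0 ≤ lam i) ∧ ∑ i, lam i = 1 ∧
      ∀ k : ι → G, (∀ i, k i ∈ K ∧ ∀ y ∈ K, inner ℝ y (d i) - δ ^ 2 / 8 < inner ℝ (k i) (d i)) →
        ‖∑ i, lam i • k i - p‖ < δ := by
  have hKc : IsCompact (closure K) := hb.isCompact_closure
  have hp' : p ∈ closure K := subset_closure hp
  have hmem := mem_closure_convexHull_farthest (closure K) hKc p hp'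
  obtain ⟨q, hq, hqp⟩ := Metric.mem_closure_iff.mp hmem (δ / 2) (by positivity)
  obtain ⟨ι, hι, lam, z, hlam0, hlam1, hz, hsum⟩ := mem_convexHull_iff_exists_fintype.mp hq
  choose hzK c hc using hz
  refine ⟨ι, hι, lam, fun i => z i - c i, hlam0, hlam1, ?_⟩
  intro k hk
  have hki : ∀ i, ‖k i - z i‖ ≤ δ / 2 := by
    intro i
    obtain ⟨hkK, hslice⟩ := hk i
    have hcl : ∀ y ∈ closure K, inner ℝ y (z i - c i) - δ ^ 2 / 8 ≤ inner ℝ (k i) (z i - c i) := by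
      intro y hy
      have hcont : Continuous fun y : G => inner ℝ y (z i - c i) - δ ^ 2 / 8 := by fun_prop
      have hclosed : IsClosed {y : G | inner ℝ y (z i - c i) - δ ^ 2 / 8 ≤
          inner ℝ (k i) (z i - c i)} := isClosed_le hcont continuous_const
      exact closure_minimal (fun y hy => (hslice y hy).le) hclosed hy
    have h1 := farthest_slice_small (closure K) (z i) (c i) (hc i) (k i) (subset_closure hkK)
      (δ ^ 2 / 8) (hcl (z i) (hzK i))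
    have h2 : ‖k i - z i‖ ^ 2 ≤ (δ / 2) ^ 2 := by nlinarith
    exact (pow_le_pow_iff_left₀ (norm_nonneg _) (by positivity) two_ne_zero).mp h2
  have e : ∑ i, lam i • k i - p = ∑ i, lam i • (k i - z i) + (q - p) := by
    rw [← hsum]
    simp only [smul_sub, Finset.sum_sub_distrib]
    abel
  rw [e]
  have h1 : ‖∑ i, lam i • (k i - z i)‖ ≤ δ / 2 := by
    calc ‖∑ i, lam i • (k i - z i)‖ ≤ ∑ i, ‖lam i • (k i - z i)‖ := norm_sum_le _ _
      _ ≤ ∑ i, lam i * (δ / 2) := by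
        apply Finset.sum_le_sum
        intro i _
        rw [norm_smul, Real.norm_eq_abs, abs_of_nonneg (hlam0 i)]
        exact mul_le_mul_of_nonneg_left (hki i) (hlam0 i)
      _ = δ / 2 := by rw [← Finset.sum_mul, hlam1, one_mul]
  have h2 : ‖q - p‖ < δ / 2 := by
    rw [← dist_eq_norm, dist_comm]; exact hqp
  calc ‖∑ i, lam i • (k i - z i) + (q - p)‖ ≤ ‖∑ i, lam i • (k i - z i)‖ + ‖q - p‖ :=
        norm_add_le _ _
    _ < δ := by linarith

end Geometry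

/-- **Finite-codimensional Shvidkoy lemma.** In a space with the Daugavet property, for every
`x` in the unit ball and every closed finite-codimensional subspace `S` there is `z` of norm
at most `1 + ε` with `z - x ∈ S` and `‖z - x‖ ≥ ‖x‖ + 1 - ε`. -/
theorem shvidkoy_cof (hD : HasDaugavetProperty V) (S : Submodule ℝ V)
    (hS : IsClosed (S : Set V)) (hfin : FiniteDimensional ℝ (V ⧸ S)) (x : V) (hx : ‖x‖ ≤ 1)
    (ε : ℝ) (hε : 0 < ε) :
    ∃ z : V, z - x ∈ S ∧ ‖z‖ ≤ 1 + ε ∧ ‖x‖ + 1 - ε ≤ ‖z - x‖ := by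
  classical
  have : IsClosed (S : Set V) := hS
  let L : (V ⧸ S) ≃L[ℝ] EuclideanSpace ℝ (Fin (Module.finrank ℝ (V ⧸ S))) := toEuclidean
  let Φ : V →L[ℝ] EuclideanSpace ℝ (Fin (Module.finrank ℝ (V ⧸ S))) :=
    (L : (V ⧸ S) →L[ℝ] EuclideanSpace ℝ (Fin (Module.finrank ℝ (V ⧸ S)))).comp S.mkQL
  set K : Set (EuclideanSpace ℝ (Fin (Module.finrank ℝ (V ⧸ S)))) :=
    Φ '' Metric.closedBall 0 1 with hKdef
  have hb : Bornology.IsBounded K := by
    rw [isBounded_iff_forall_norm_le]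
    refine ⟨‖Φ‖, ?_⟩
    rintro _ ⟨b, hb, rfl⟩
    have hb1 : ‖b‖ ≤ 1 := by simpa using hb
    calc ‖Φ b‖ ≤ ‖Φ‖ * ‖b‖ := Φ.le_opNorm b
      _ ≤ ‖Φ‖ * 1 := mul_le_mul_of_nonneg_left hb1 (norm_nonneg _)
      _ = ‖Φ‖ := mul_one _
  have hp : Φ x ∈ K := ⟨x, by simpa using hx, rfl⟩
  have hC0' : 0 ≤ ‖(L.symm : EuclideanSpace ℝ (Fin (Module.finrank ℝ (V ⧸ S))) →L[ℝ] (V ⧸ S))‖ :=
    ContinuousLinearMap.opNorm_nonneg _
  set C : ℝ := ‖(L.symm : EuclideanSpace ℝ (Fin (Module.finrank ℝ (V ⧸ S))) →L[ℝ] (V ⧸ S))‖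
    with hC
  have hC0 : 0 ≤ C := hC0'
  set δ : ℝ := ε / (3 * (C + 1)) with hδdef
  have hδ : 0 < δ := by positivity
  obtain ⟨ι, hι, lam, d, hlam0, hlam1, hslices⟩ := exists_small_slices K hb (Φ x) hp δ hδ
  obtain ⟨z, hz1, hz2⟩ := daugavet_iter hD (Finset.univ : Finset ι) lam
    (fun i => (innerSL ℝ (d i)).comp Φ) (δ ^ 2 / 8) (by positivity) (ε / 3) (by positivity)
    (fun i _ => hlam0 i) x
  rw [hlam1, mul_one] at hz2
  set z₀ : V := ∑ i, lam i • z i with hz₀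
  have hz₀norm : ‖z₀‖ ≤ 1 := by
    calc ‖z₀‖ ≤ ∑ i, ‖lam i • z i‖ := norm_sum_le _ _
      _ ≤ ∑ i, lam i * 1 := by
        apply Finset.sum_le_sum
        intro i _
        rw [norm_smul, Real.norm_eq_abs, abs_of_nonneg (hlam0 i)]
        exact mul_le_mul_of_nonneg_left (hz1 i (Finset.mem_univ i)).1 (hlam0 i)
      _ = 1 := by simp [hlam1]
  have hΦ : ‖Φ z₀ - Φ x‖ < δ := by
    have h := hslices (fun i => Φ (z i)) ?_
    · simpa [hz₀, map_sum] using h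
    · intro i
      refine ⟨⟨z i, by simpa using (hz1 i (Finset.mem_univ i)).1, rfl⟩, ?_⟩
      rintro _ ⟨b, hb, rfl⟩
      have hb1 : ‖b‖ ≤ 1 := by simpa using hb
      have h2 := (hz1 i (Finset.mem_univ i)).2
      have h3 : ((innerSL ℝ (d i)).comp Φ) b ≤ ‖(innerSL ℝ (d i)).comp Φ‖ := by
        calc ((innerSL ℝ (d i)).comp Φ) b ≤ ‖((innerSL ℝ (d i)).comp Φ) b‖ := le_abs_self _
          _ ≤ ‖(innerSL ℝ (d i)).comp Φ‖ * ‖b‖ := ContinuousLinearMap.le_opNorm _ _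
          _ ≤ ‖(innerSL ℝ (d i)).comp Φ‖ * 1 :=
            mul_le_mul_of_nonneg_left hb1 (norm_nonneg _)
          _ = _ := mul_one _
      have h4 : ((innerSL ℝ (d i)).comp Φ) b = inner ℝ (Φ b) (d i) := by
        simp [real_inner_comm]
      have h5 : ((innerSL ℝ (d i)).comp Φ) (z i) = inner ℝ (Φ (z i)) (d i) := by
        simp [real_inner_comm]
      rw [← h4, ← h5]
      linarith
  -- correction term
  set q : V ⧸ S := S.mkQ (x - z₀) with hq
  have hqL : q = L.symm (Φ (x - z₀)) := by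
    simp [Φ, hq]
  have hqnorm : ‖q‖ ≤ C * δ := by
    rw [hqL]
    calc ‖L.symm (Φ (x - z₀))‖ ≤ C * ‖Φ (x - z₀)‖ :=
          (L.symm : EuclideanSpace ℝ (Fin (Module.finrank ℝ (V ⧸ S))) →L[ℝ] (V ⧸ S)).le_opNorm _
      _ ≤ C * δ := by
        apply mul_le_mul_of_nonneg_left _ hC0
        rw [map_sub, ← norm_neg, neg_sub]
        exact hΦ.le
  obtain ⟨e, he1, he2⟩ := Submodule.Quotient.norm_mk_lt q (show (0 : ℝ) < ε / 3 by positivity)
  have hCδ : C * δ ≤ ε / 3 := by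
    rw [hδdef]
    have : C * (ε / (3 * (C + 1))) = (C / (C + 1)) * (ε / 3) := by field_simp
    rw [this]
    have h1 : C / (C + 1) ≤ 1 := by
      rw [div_le_one (by linarith)]; linarith
    calc C / (C + 1) * (ε / 3) ≤ 1 * (ε / 3) :=
          mul_le_mul_of_nonneg_right h1 (by positivity)
      _ = ε / 3 := one_mul _
  have henorm : ‖e‖ ≤ 2 * ε / 3 := by linarith
  refine ⟨z₀ + e, ?_, ?_, ?_⟩
  · rw [← Submodule.Quotient.mk_eq_zero]
    have : z₀ + e - x = e - (x - z₀) := by abel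
    rw [this, Submodule.Quotient.mk_sub, he1, hq]
    simp
  · calc ‖z₀ + e‖ ≤ ‖z₀‖ + ‖e‖ := norm_add_le _ _
      _ ≤ 1 + ε := by linarith
  · have h1 : x - z₀ = -(z₀ + e - x) + e := by abel
    have h2 : ‖x - z₀‖ ≤ ‖z₀ + e - x‖ + ‖e‖ := by
      calc ‖x - z₀‖ = ‖-(z₀ + e - x) + e‖ := by rw [← h1]
        _ ≤ ‖-(z₀ + e - x)‖ + ‖e‖ := norm_add_le _ _
        _ = ‖z₀ + e - x‖ + ‖e‖ := by rw [norm_neg]
    linarith

/-- Interface theorem (package P167A2): in a Daugavet space, every closed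
finite-codimensional subspace contains a unit vector `y` with `‖x + 2 • y‖ ≤ 1 + η`. -/
theorem daugavet_cof {V : Type*} [NormedAddCommGroup V] [NormedSpace ℝ V]
    (hD : Crest.AnalysisR.L1Subspace.HasDaugavetProperty V) (x : V) (hx : ‖x‖ = 1) (F : Set V)
    (hF : Crest.Agent.S0166.Helper32.IsCofG F) (η : ℝ) (hη : 0 < η) :
    ∃ y ∈ F, ‖y‖ = 1 ∧ ‖x + (2 : ℝ) • y‖ ≤ 1 + η := by
  obtain ⟨S, rfl, hcl, hfin⟩ := hF
  set ε : ℝ := min (η / 2) 1 with hεdef
  have hε : 0 < ε := lt_min (by positivity) one_pos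
  have hε1 : ε ≤ 1 := min_le_right _ _
  have hε2 : ε ≤ η / 2 := min_le_left _ _
  obtain ⟨z, hzS, hz1, hz2⟩ := shvidkoy_cof hD S hcl hfin x hx.le ε hε
  rw [hx] at hz2
  set f : V := z - x with hf
  have hfpos : 0 < ‖f‖ := by linarith
  have hfle : ‖f‖ ≤ 2 + ε := by
    calc ‖f‖ ≤ ‖z‖ + ‖x‖ := norm_sub_le _ _
      _ ≤ 2 + ε := by rw [hx]; linarith
  refine ⟨‖f‖⁻¹ • f, S.smul_mem _ hzS, ?_, ?_⟩
  · rw [norm_smul, norm_inv, norm_norm, inv_mul_cancel₀ hfpos.ne']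
  · have e : x + (2 : ℝ) • ‖f‖⁻¹ • f = z + (2 * ‖f‖⁻¹ - 1) • f := by
      rw [sub_smul, one_smul, smul_smul, hf]; abel
    rw [e]
    have h1 : |2 * ‖f‖⁻¹ - 1| * ‖f‖ = |2 - ‖f‖| := by
      have : 2 * ‖f‖⁻¹ - 1 = (2 - ‖f‖) * ‖f‖⁻¹ := by field_simp
      rw [this, abs_mul, abs_of_pos (inv_pos.mpr hfpos), mul_assoc,
        inv_mul_cancel₀ hfpos.ne', mul_one]
    have h2 : |2 - ‖f‖| ≤ ε := by
      rw [abs_le]; constructor <;> linarith
    calc ‖z + (2 * ‖f‖⁻¹ - 1) • f‖ ≤ ‖z‖ + ‖(2 * ‖f‖⁻¹ - 1) • f‖ := norm_add_le _ _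
      _ = ‖z‖ + |2 - ‖f‖| := by rw [norm_smul, Real.norm_eq_abs, h1]
      _ ≤ 1 + η := by linarith

end Crest.Agent.S0167.Helper29
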