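import Mathlib
import Crest.Prelude.Def_DaugavetL1
import Crest.Agent.Lib.S0166.Helper32Core

/-!
P167B (row 125, S0167): measure-theoretic lower bound for the midpoint quantity in a subspace of
`L¹(P)` whose unit ball is totally bounded in measure.

For a unit vector `x` of such a subspace `E`, `t > 0` and `η > 0` there is a closed
finite-codimensional subspace `F` of `E` such that every unit `y ∈ F` satisfies
`(‖x + t y‖ + ‖x - t y‖) / 2 ≥ 1 + t / 2 - η`.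
-/

set_option autoImplicit false

namespace Crest.Agent.S0167.Helper90

open MeasureTheory Crest.AnalysisR.L1Subspace

variable {Ω : Type} [MeasurableSpace Ω]

/-- Pointwise: `|a| ≤ (|a + b| + |a - b|) / 2`. -/
theorem abs_left_le_avg (a b : ℝ) : |a| ≤ (|a + b| + |a - b|) / 2 := by
  rcases abs_cases (a + b) with h1 | h1 <;> rcases abs_cases (a - b) with h2 | h2 <;>
    rcases abs_cases a with h3 | h3 <;> linarith

/-- Pointwise: `|b| ≤ (|a + b| + |a - b|) / 2`. -/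
theorem abs_right_le_avg (a b : ℝ) : |b| ≤ (|a + b| + |a - b|) / 2 := by
  rcases abs_cases (a + b) with h1 | h1 <;> rcases abs_cases (a - b) with h2 | h2 <;>
    rcases abs_cases b with h3 | h3 <;> linarith

/-- If the distance in measure is `< ε`, the level set `{ε < |f - g|}` has measure `< ε`. -/
theorem measure_lt_of_measureDist_lt (P : Measure Ω) [IsProbabilityMeasure P] (f g : Lp ℝ 1 P)
    {ε : ℝ} (h : measureDist P f g < ε) :
    P {z | ε < |(f : Ω → ℝ) z - (g : Ω → ℝ) z|} < ENNReal.ofReal ε := by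
  unfold measureDist at h
  have hne : {a : ℝ | 0 < a ∧
      P {z | a < abs ((f : Ω → ℝ) z - (g : Ω → ℝ) z)} < ENNReal.ofReal a}.Nonempty := by
    refine ⟨2, by norm_num, ?_⟩
    calc P {z | (2 : ℝ) < |(f : Ω → ℝ) z - (g : Ω → ℝ) z|} ≤ 1 := prob_le_one
      _ < ENNReal.ofReal 2 := by simp
  obtain ⟨a, ⟨-, ha⟩, haε⟩ := exists_lt_of_csInf_lt hne h
  calc P {z | ε < |(f : Ω → ℝ) z - (g : Ω → ℝ) z|}
      ≤ P {z | a < |(f : Ω → ℝ) z - (g : Ω → ℝ) z|} :=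
        measure_mono (fun z hz => lt_trans haε hz)
    _ < ENNReal.ofReal a := ha
    _ ≤ ENNReal.ofReal ε := ENNReal.ofReal_le_ofReal haε.le

/-- Absolute continuity of the integral of a single `L¹` function. -/
theorem exists_delta_setIntegral_abs_le (P : Measure Ω) (x : Lp ℝ 1 P) {η : ℝ} (hη : 0 < η) :
    ∃ δ : ℝ, 0 < δ ∧ ∀ A : Set Ω, P A < ENNReal.ofReal δ →
      ∫ z in A, |(x : Ω → ℝ) z| ∂P ≤ η := by
  have hint : Integrable (x : Ω → ℝ) P := L1.integrable_coeFn x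
  have h1 : ∫⁻ z, ENNReal.ofReal |(x : Ω → ℝ) z| ∂P ≠ ⊤ := by
    have h2 := hint.abs.2
    have h3 : ∫⁻ z, ENNReal.ofReal |(x : Ω → ℝ) z| ∂P = ∫⁻ z, ‖|(x : Ω → ℝ) z|‖ₑ ∂P := by
      refine lintegral_congr fun z => ?_
      rw [Real.enorm_eq_ofReal (abs_nonneg _)]
    rw [h3]
    exact h2.ne
  obtain ⟨δ, hδ, h⟩ := exists_pos_setLIntegral_lt_of_measure_lt h1 (ε := ENNReal.ofReal η)
    (by simp [hη])
  refine ⟨(min δ 1).toReal, ?_, fun A hA => ?_⟩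
  · refine ENNReal.toReal_pos ?_ ?_
    · exact (lt_min hδ zero_lt_one).ne'
    · exact ne_top_of_le_ne_top ENNReal.one_ne_top (min_le_right _ _)
  · have hA' : P A < δ := by
      rw [ENNReal.ofReal_toReal (ne_top_of_le_ne_top ENNReal.one_ne_top (min_le_right _ _))] at hA
      exact lt_of_lt_of_le hA (min_le_left _ _)
    have h4 := h A hA'
    rw [integral_eq_lintegral_of_nonneg_ae (Filter.Eventually.of_forall fun z => abs_nonneg _)
      hint.abs.aestronglyMeasurable.restrict]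
    exact ENNReal.toReal_le_of_le_ofReal hη.le h4.le

/-- The analytic core, stated in `L¹(P)`. -/
theorem core (P : Measure Ω) [IsProbabilityMeasure P] (x y g : Lp ℝ 1 P)
    (hx : ‖x‖ = 1) (hy : ‖y‖ = 1) (hgy : ‖g‖ ≤ ‖g - y‖) {ε ω t : ℝ} (hε : 0 < ε) (ht : 0 < t)
    (hω : ∫ z in {z | ε < |(y : Ω → ℝ) z - (g : Ω → ℝ) z|}, |(x : Ω → ℝ) z| ∂P ≤ ω) :
    1 + t / 2 - ω - t * ε ≤ (‖x + t • y‖ + ‖x - t • y‖) / 2 := by
  set A : Set Ω := {z | ε < |(y : Ω → ℝ) z - (g : Ω → ℝ) z|} with hA_def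
  have hxm : Measurable (x : Ω → ℝ) := (Lp.stronglyMeasurable x).measurable
  have hym : Measurable (y : Ω → ℝ) := (Lp.stronglyMeasurable y).measurable
  have hgm : Measurable (g : Ω → ℝ) := (Lp.stronglyMeasurable g).measurable
  have hAm : MeasurableSet A := measurableSet_lt measurable_const (hym.sub hgm).abs
  have hxi : Integrable (x : Ω → ℝ) P := L1.integrable_coeFn x
  have hyi : Integrable (y : Ω → ℝ) P := L1.integrable_coeFn y
  have hgi : Integrable (g : Ω → ℝ) P := L1.integrable_coeFn g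
  -- norms as integrals
  have nx : ∫ z, |(x : Ω → ℝ) z| ∂P = 1 := by
    rw [← hx, L1.norm_eq_integral_norm]; rfl
  have ny : ∫ z, |(y : Ω → ℝ) z| ∂P = 1 := by
    rw [← hy, L1.norm_eq_integral_norm]; rfl
  have ng : ‖g‖ = ∫ z, |(g : Ω → ℝ) z| ∂P := by
    rw [L1.norm_eq_integral_norm]; rfl
  have ngy : ‖g - y‖ = ∫ z, |(g : Ω → ℝ) z - (y : Ω → ℝ) z| ∂P := by
    rw [L1.norm_eq_integral_norm]
    refine integral_congr_ae ?_
    filter_upwards [Lp.coeFn_sub g y] with z hz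
    rw [hz, Real.norm_eq_abs]; rfl
  have np : ‖x + t • y‖ = ∫ z, |(x : Ω → ℝ) z + t * (y : Ω → ℝ) z| ∂P := by
    rw [L1.norm_eq_integral_norm]
    refine integral_congr_ae ?_
    filter_upwards [Lp.coeFn_add x (t • y), Lp.coeFn_smul t y] with z hz1 hz2
    rw [hz1, Real.norm_eq_abs, Pi.add_apply, hz2]; rfl
  have nm : ‖x - t • y‖ = ∫ z, |(x : Ω → ℝ) z - t * (y : Ω → ℝ) z| ∂P := by
    rw [L1.norm_eq_integral_norm]
    refine integral_congr_ae ?_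
    filter_upwards [Lp.coeFn_sub x (t • y), Lp.coeFn_smul t y] with z hz1 hz2
    rw [hz1, Real.norm_eq_abs, Pi.sub_apply, hz2]; rfl
  -- integrability facts
  have hgyi : Integrable (fun z => |(g : Ω → ℝ) z - (y : Ω → ℝ) z|) P := (hgi.sub hyi).abs
  have hpi : Integrable (fun z => |(x : Ω → ℝ) z + t * (y : Ω → ℝ) z|) P :=
    (hxi.add (hyi.const_mul t)).abs
  have hmi : Integrable (fun z => |(x : Ω → ℝ) z - t * (y : Ω → ℝ) z|) P :=
    (hxi.sub (hyi.const_mul t)).abs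
  have hPc : P.real Aᶜ ≤ 1 := measureReal_le_one
  have hPc0 : 0 ≤ P.real Aᶜ := measureReal_nonneg
  -- (2),(3): ∫_{Aᶜ} |g| ≤ ∫_A |y| + ε
  have s_g := integral_add_compl hAm hgi.abs
  have s_gy := integral_add_compl hAm hgyi
  have s_y := integral_add_compl hAm hyi.abs
  have s_x := integral_add_compl hAm hxi.abs
  have b1 : ∫ z in A, |(g : Ω → ℝ) z - (y : Ω → ℝ) z| ∂P
      ≤ ∫ z in A, |(g : Ω → ℝ) z| ∂P + ∫ z in A, |(y : Ω → ℝ) z| ∂P := by
    rw [← integral_add hgi.abs.integrableOn hyi.abs.integrableOn]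
    exact setIntegral_mono hgyi.integrableOn (hgi.abs.add hyi.abs).integrableOn
      (fun z => abs_sub _ _)
  have b2 : ∫ z in Aᶜ, |(g : Ω → ℝ) z - (y : Ω → ℝ) z| ∂P ≤ ε := by
    have h1 : ∫ z in Aᶜ, |(g : Ω → ℝ) z - (y : Ω → ℝ) z| ∂P ≤ ∫ _ in Aᶜ, ε ∂P := by
      refine setIntegral_mono_on hgyi.integrableOn (integrableOn_const (measure_ne_top _ _))
        hAm.compl (fun z hz => ?_)
      have hz' : ¬ ε < |(y : Ω → ℝ) z - (g : Ω → ℝ) z| := hz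
      rw [abs_sub_comm]
      exact not_lt.mp hz'
    rw [setIntegral_const, smul_eq_mul] at h1
    nlinarith
  have b3 : ∫ z in Aᶜ, |(y : Ω → ℝ) z| ∂P ≤ ∫ z in Aᶜ, |(g : Ω → ℝ) z| ∂P + ε := by
    have h1 : ∫ z in Aᶜ, |(y : Ω → ℝ) z| ∂P ≤ ∫ z in Aᶜ, (|(g : Ω → ℝ) z| + ε) ∂P := by
      refine setIntegral_mono_on hyi.abs.integrableOn
        (hgi.abs.integrableOn.add (integrableOn_const (measure_ne_top _ _)))
        hAm.compl (fun z hz => ?_)
      have hz' : ¬ ε < |(y : Ω → ℝ) z - (g : Ω → ℝ) z| := hz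
      have h2 : |(y : Ω → ℝ) z - (g : Ω → ℝ) z| ≤ ε := not_lt.mp hz'
      have h3 : |(y : Ω → ℝ) z| ≤ |(y : Ω → ℝ) z - (g : Ω → ℝ) z| + |(g : Ω → ℝ) z| := by
        have := abs_add_le ((y : Ω → ℝ) z - (g : Ω → ℝ) z) ((g : Ω → ℝ) z)
        simpa using this
      linarith
    rw [integral_add hgi.abs.integrableOn (integrableOn_const (measure_ne_top _ _)),
      setIntegral_const, smul_eq_mul] at h1
    nlinarith
  -- (6)
  have hhi : Integrable (fun z => (|(x : Ω → ℝ) z + t * (y : Ω → ℝ) z|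
      + |(x : Ω → ℝ) z - t * (y : Ω → ℝ) z|) / 2) P := (hpi.add hmi).div_const 2
  have s_h := integral_add_compl hAm hhi
  have c1 : t * ∫ z in A, |(y : Ω → ℝ) z| ∂P ≤ ∫ z in A, (|(x : Ω → ℝ) z + t * (y : Ω → ℝ) z|
      + |(x : Ω → ℝ) z - t * (y : Ω → ℝ) z|) / 2 ∂P := by
    rw [← integral_const_mul]
    refine setIntegral_mono (hyi.abs.const_mul t).integrableOn hhi.integrableOn (fun z => ?_)
    have := abs_right_le_avg ((x : Ω → ℝ) z) (t * (y : Ω → ℝ) z)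
    rw [abs_mul, abs_of_pos ht] at this
    exact this
  have c2 : ∫ z in Aᶜ, |(x : Ω → ℝ) z| ∂P ≤ ∫ z in Aᶜ, (|(x : Ω → ℝ) z + t * (y : Ω → ℝ) z|
      + |(x : Ω → ℝ) z - t * (y : Ω → ℝ) z|) / 2 ∂P :=
    setIntegral_mono hxi.abs.integrableOn hhi.integrableOn
      (fun z => abs_left_le_avg ((x : Ω → ℝ) z) (t * (y : Ω → ℝ) z))
  have tot : ∫ z, (|(x : Ω → ℝ) z + t * (y : Ω → ℝ) z|
      + |(x : Ω → ℝ) z - t * (y : Ω → ℝ) z|) / 2 ∂P = (‖x + t • y‖ + ‖x - t • y‖) / 2 := by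
    rw [integral_div, integral_add hpi hmi, np, nm]
  rw [← tot, ← s_h]
  -- ∫_A |y| ≥ 1/2 - ε
  have key : 1 / 2 - ε ≤ ∫ z in A, |(y : Ω → ℝ) z| ∂P := by
    rw [ng, ngy] at hgy
    linarith
  have : t * (1 / 2 - ε) ≤ t * ∫ z in A, |(y : Ω → ℝ) z| ∂P :=
    mul_le_mul_of_nonneg_left key ht.le
  linarith

/-- **P167B.** Lower bound for the midpoint quantity on a closed finite-codimensional subspace. -/
theorem midpoint_lower (Ω : Type) [MeasurableSpace Ω] (P : Measure Ω) [IsProbabilityMeasure P]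
    (E : Submodule ℝ (Lp ℝ 1 P)) (htb : UnitBallTotallyBoundedInMeasure P E) (x : E)
    (hx : ‖x‖ = 1) (t : ℝ) (ht : 0 < t) (η : ℝ) (hη : 0 < η) :
    ∃ F : Set E, Crest.Agent.S0166.Helper32.IsCofG F ∧ ∀ y ∈ F, ‖y‖ = 1 →
      1 + t / 2 - η ≤ (‖x + t • y‖ + ‖x - t • y‖) / 2 := by
  classical
  obtain ⟨δ, hδ, hδA⟩ := exists_delta_setIntegral_abs_le P (x : Lp ℝ 1 P) (half_pos hη)
  set ε : ℝ := min δ (η / (2 * t)) with hε_def
  have hε : 0 < ε := lt_min hδ (by positivity)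
  obtain ⟨s, -, hnet⟩ := htb ε hε
  choose φ hφ1 hφ2 using fun g : Lp ℝ 1 P => exists_dual_vector'' ℝ g
  refine ⟨{y : E | ∀ g : s, ((φ g.1).comp E.subtypeL) y = 0},
    Crest.Agent.S0166.Helper32.isCofG_iInter_ker (fun g : s => (φ g.1).comp E.subtypeL), ?_⟩
  intro y hyF hy1
  have hy1' : ‖(y : Lp ℝ 1 P)‖ = 1 := hy1
  have hx' : ‖(x : Lp ℝ 1 P)‖ = 1 := hx
  obtain ⟨g, hgs, hdist⟩ := hnet (y : Lp ℝ 1 P) y.2 hy1'.le
  have hA := measure_lt_of_measureDist_lt P (y : Lp ℝ 1 P) g hdist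
  have hφy : φ g (y : Lp ℝ 1 P) = 0 := hyF ⟨g, hgs⟩
  have hgy : ‖g‖ ≤ ‖g - (y : Lp ℝ 1 P)‖ := by
    have h1 : φ g (g - (y : Lp ℝ 1 P)) = ‖g‖ := by
      rw [map_sub, hφy, sub_zero, hφ2]; rfl
    calc ‖g‖ = φ g (g - (y : Lp ℝ 1 P)) := h1.symm
      _ ≤ ‖φ g (g - (y : Lp ℝ 1 P))‖ := Real.le_norm_self _
      _ ≤ ‖φ g‖ * ‖g - (y : Lp ℝ 1 P)‖ := (φ g).le_opNorm _
      _ ≤ 1 * ‖g - (y : Lp ℝ 1 P)‖ :=
        mul_le_mul_of_nonneg_right (hφ1 g) (norm_nonneg _)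
      _ = ‖g - (y : Lp ℝ 1 P)‖ := one_mul _
  have hω := hδA _ (lt_of_lt_of_le hA (ENNReal.ofReal_le_ofReal (min_le_left _ _)))
  have hcore := core P (x : Lp ℝ 1 P) (y : Lp ℝ 1 P) g hx' hy1' hgy hε ht hω
  have htε : t * ε ≤ η / 2 := by
    calc t * ε ≤ t * (η / (2 * t)) := mul_le_mul_of_nonneg_left (min_le_right _ _) ht.le
      _ = η / 2 := by field_simp
  have e1 : ‖x + t • y‖ = ‖(x : Lp ℝ 1 P) + t • (y : Lp ℝ 1 P)‖ := rfl
  have e2 : ‖x - t • y‖ = ‖(x : Lp ℝ 1 P) - t • (y : Lp ℝ 1 P)‖ := rfl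
  rw [e1, e2]
  linarith

end Crest.Agent.S0167.Helper90
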