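import Mathlib
import Crest.Prelude.Def_AsymptoticConvexity
import Crest.Prelude.Def_DaugavetL1
import Crest.Agent.Lib.S0166.Helper32Core
import Crest.Agent.Lib.S0167.Helper29Shvidkoy
import Crest.Agent.Lib.S0167.Helper90Lower

/-!
PA167 (row 125, S0167): assembly of the final-shape statement from the two analytic inputs

* `hcof` (finite-codimensional Shvidkoy lemma, package P167A2 `daugavet_cof`): every unit `x`,
  closed finite-codimensional `F` and `η > 0` have a unit `y ∈ F` with `‖x + 2 y‖ ≤ 1 + η`;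
* `hlow` (package P167B `midpoint_lower`): for every unit `x`, `t > 0`, `η > 0` some closed
  finite-codimensional `F` has `1 + t/2 - η ≤ (‖x + t y‖ + ‖x - t y‖)/2` for all unit `y ∈ F`.

`generic` is the statement for an arbitrary real normed space; `main_of` is the statement of
S0167 with the two inputs as explicit hypotheses.
-/

set_option autoImplicit false

namespace Crest.Agent.S0167.Helper47

open Crest.AnalysisR Crest.Agent.S0166.Helper32

section Generic

variable {V : Type*} [NormedAddCommGroup V] [NormedSpace ℝ V]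

/-- From `‖x‖ = 1`, `‖y‖ = 1`, `‖x + 2 y‖ ≤ 1 + η` (`0 ≤ η`) : `‖x + t y‖ ≤ max 1 (t - 1) + η`. -/
theorem norm_add_smul_le {x y : V} (hx : ‖x‖ = 1) (hy : ‖y‖ = 1) {η : ℝ} (hη : 0 ≤ η)
    (h2 : ‖x + (2 : ℝ) • y‖ ≤ 1 + η) {t : ℝ} (ht : 0 < t) :
    ‖x + t • y‖ ≤ max 1 (t - 1) + η := by
  rcases le_total t 2 with h | h
  · have hdecomp : x + t • y = (1 - t / 2) • x + (t / 2) • (x + (2 : ℝ) • y) := by
      rw [smul_add, smul_smul, ← add_assoc, ← add_smul]
      have h1 : (1 - t / 2 + t / 2 : ℝ) = 1 := by ring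
      have h2 : (t / 2 * 2 : ℝ) = t := by ring
      rw [h1, h2, one_smul]
    have h3 : ‖x + t • y‖ ≤ (1 - t / 2) * 1 + (t / 2) * (1 + η) := by
      rw [hdecomp]
      refine (norm_add_le _ _).trans ?_
      rw [norm_smul, norm_smul, Real.norm_eq_abs, Real.norm_eq_abs,
        abs_of_nonneg (by linarith : (0 : ℝ) ≤ 1 - t / 2), abs_of_nonneg (by linarith : (0 : ℝ) ≤ t / 2),
        hx]
      have : (t / 2) * ‖x + (2 : ℝ) • y‖ ≤ (t / 2) * (1 + η) :=
        mul_le_mul_of_nonneg_left h2 (by linarith)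
      linarith
    have h4 : (t / 2) * η ≤ 1 * η := mul_le_mul_of_nonneg_right (by linarith) hη
    have h5 : (1 : ℝ) ≤ max 1 (t - 1) := le_max_left _ _
    nlinarith
  · have hdecomp : x + t • y = (x + (2 : ℝ) • y) + (t - 2) • y := by
      rw [add_assoc, ← add_smul]
      have h1 : (2 + (t - 2) : ℝ) = t := by ring
      rw [h1]
    have h3 : ‖x + t • y‖ ≤ (1 + η) + (t - 2) * 1 := by
      rw [hdecomp]
      refine (norm_add_le _ _).trans ?_
      rw [norm_smul, Real.norm_eq_abs, abs_of_nonneg (by linarith : (0 : ℝ) ≤ t - 2), hy]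
      linarith
    have h5 : t - 1 ≤ max 1 (t - 1) := le_max_right _ _
    linarith

theorem norm_sub_smul_le {x y : V} (hx : ‖x‖ = 1) (hy : ‖y‖ = 1) {t : ℝ} (ht : 0 < t) :
    ‖x - t • y‖ ≤ 1 + t := by
  refine (norm_sub_le _ _).trans ?_
  rw [norm_smul, Real.norm_eq_abs, abs_of_pos ht, hx, hy]
  linarith

theorem two_mul_le_norm_add_norm_sub {x y : V} (hy : ‖y‖ = 1) {t : ℝ} (ht : 0 < t) :
    2 * t ≤ ‖x + t • y‖ + ‖x - t • y‖ := by
  have h1 : (x + t • y) - (x - t • y) = (2 * t) • y := by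
    rw [two_mul, add_smul]
    abel
  have h2 : ‖(x + t • y) - (x - t • y)‖ = 2 * t := by
    rw [h1, norm_smul, Real.norm_eq_abs, abs_of_pos (by linarith), hy, mul_one]
  have h3 := norm_sub_le (x + t • y) (x - t • y)
  linarith

theorem sub_one_le_norm_add_smul {x y : V} (hx : ‖x‖ = 1) (hy : ‖y‖ = 1) {t : ℝ} (ht : 0 < t) :
    t - 1 ≤ ‖x + t • y‖ := by
  have h1 : t • y = (x + t • y) - x := by abel
  have h2 : ‖t • y‖ = t := by
    rw [norm_smul, Real.norm_eq_abs, abs_of_pos ht, hy, mul_one]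
  have h3 : ‖t • y‖ ≤ ‖x + t • y‖ + ‖x‖ := by
    conv_lhs => rw [h1]
    exact norm_sub_le _ _
  linarith

/-- The five conclusions for a general real normed space, in terms of the generic notions of
`Helper32Core`. -/
theorem generic (hinf : ¬ FiniteDimensional ℝ V)
    (hcof : ∀ x : V, ‖x‖ = 1 → ∀ F : Set V, IsCofG F → ∀ η : ℝ, 0 < η →
      ∃ y ∈ F, ‖y‖ = 1 ∧ ‖x + (2 : ℝ) • y‖ ≤ 1 + η)
    (hlow : ∀ x : V, ‖x‖ = 1 → ∀ t : ℝ, 0 < t → ∀ η : ℝ, 0 < η →
      ∃ F : Set V, IsCofG F ∧ ∀ y ∈ F, ‖y‖ = 1 →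
        1 + t / 2 - η ≤ (‖x + t • y‖ + ‖x - t • y‖) / 2) :
    (∀ t : ℝ, 0 < t →
      (∀ x : V, ‖x‖ = 1 → ∀ η : ℝ, 0 < η → ∃ F : Set V, IsCofG F ∧
        ∀ y ∈ F, ‖y‖ = 1 → max (t / 2) (t - 1) - η ≤ (‖x + t • y‖ + ‖x - t • y‖) / 2 - 1) ∧
      (∀ x : V, ‖x‖ = 1 → ∀ F : Set V, IsCofG F → ∀ η : ℝ, 0 < η →
        ∃ y ∈ F, ‖y‖ = 1 ∧ (‖x + t • y‖ + ‖x - t • y‖) / 2 - 1 ≤ max (t / 2) (t - 1) + η) ∧
      (∀ x : V, ‖x‖ = 1 → ∀ η : ℝ, 0 < η → ∃ F : Set V, IsCofG F ∧
        ∀ y ∈ F, ‖y‖ = 1 → max 0 (t - 2) - η ≤ ‖x + t • y‖ - 1) ∧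
      (∀ x : V, ‖x‖ = 1 → ∀ F : Set V, IsCofG F → ∀ η : ℝ, 0 < η →
        ∃ y ∈ F, ‖y‖ = 1 ∧ ‖x + t • y‖ - 1 ≤ max 0 (t - 2) + η)) ∧
    ∀ N : V → ℝ, IsEquivNormG N → ¬ IsAUCG N := by
  refine ⟨fun t ht => ⟨?_, ?_, ?_, ?_⟩, ?_⟩
  · -- (1) midpoint lower bound
    intro x hx η hη
    obtain ⟨F, hF, hFy⟩ := hlow x hx t ht η hη
    refine ⟨F, hF, fun y hyF hy => ?_⟩
    have h1 := hFy y hyF hy
    have h2 := two_mul_le_norm_add_norm_sub (x := x) hy ht
    rcases max_cases (t / 2) (t - 1) with ⟨h, -⟩ | ⟨h, -⟩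
    · rw [h]; linarith
    · rw [h]; linarith
  · -- (2) midpoint upper bound
    intro x hx F hF η hη
    obtain ⟨y, hyF, hy, h2⟩ := hcof x hx F hF η hη
    refine ⟨y, hyF, hy, ?_⟩
    have h3 := norm_add_smul_le hx hy hη.le h2 ht
    have h4 := norm_sub_smul_le hx hy ht
    rcases le_total t 2 with h | h
    · have h5 : max (1 : ℝ) (t - 1) = 1 := max_eq_left (by linarith)
      have h6 : t / 2 ≤ max (t / 2) (t - 1) := le_max_left _ _
      rw [h5] at h3
      linarith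
    · have h5 : max (1 : ℝ) (t - 1) = t - 1 := max_eq_right (by linarith)
      have h6 : t - 1 ≤ max (t / 2) (t - 1) := le_max_right _ _
      rw [h5] at h3
      linarith
  · -- (3) one-sided lower bound
    intro x hx η hη
    have hx0 : ‖x‖ ≠ 0 := by
      rw [hx]
      exact one_ne_zero
    obtain ⟨g, hg, hgx⟩ := exists_dual_vector ℝ x hx0
    refine ⟨{v : V | g v = 0}, isCofG_ker g, fun y hyF hy => ?_⟩
    have hgy : g y = 0 := hyF
    have h1 : g (x + t • y) = 1 := by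
      rw [map_add, map_smul, hgy, smul_zero, add_zero, hgx]
      simpa using hx
    have h2 : (1 : ℝ) ≤ ‖x + t • y‖ := by
      have h3 := g.le_opNorm (x + t • y)
      rw [hg, one_mul, h1] at h3
      simpa using h3
    have h4 := sub_one_le_norm_add_smul hx hy ht
    rcases max_cases (0 : ℝ) (t - 2) with ⟨h, -⟩ | ⟨h, -⟩
    · rw [h]; linarith
    · rw [h]; linarith
  · -- (4) one-sided upper bound
    intro x hx F hF η hη
    obtain ⟨y, hyF, hy, h2⟩ := hcof x hx F hF η hη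
    refine ⟨y, hyF, hy, ?_⟩
    have h3 := norm_add_smul_le hx hy hη.le h2 ht
    rcases le_total t 2 with h | h
    · have h5 : max (1 : ℝ) (t - 1) = 1 := max_eq_left (by linarith)
      have h6 : (0 : ℝ) ≤ max 0 (t - 2) := le_max_left _ _
      rw [h5] at h3
      linarith
    · have h5 : max (1 : ℝ) (t - 1) = t - 1 := max_eq_right (by linarith)
      have h6 : t - 2 ≤ max 0 (t - 2) := le_max_right _ _
      rw [h5] at h3
      linarith
  · -- (5) no equivalent AUC norm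
    intro N hN
    have hnt : Nontrivial V := by
      by_contra hcon
      rw [not_nontrivial_iff_subsingleton] at hcon
      exact hinf inferInstance
    obtain ⟨v, hv⟩ := exists_ne (0 : V)
    have hvpos : 0 < ‖v‖ := norm_pos_iff.mpr hv
    refine not_isAUCG_of_tree (T := {x : V | ‖x‖ = 1}) (R := 1) (δ := 1) one_pos
      ⟨(‖v‖)⁻¹ • v, ?_⟩ (fun x hx => le_of_eq hx) (fun x hx F hF ε hε => ?_) N hN
    · show ‖(‖v‖)⁻¹ • v‖ = 1
      rw [norm_smul, norm_inv, norm_norm, inv_mul_cancel₀ hvpos.ne']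
    · have hx1 : ‖x‖ = 1 := hx
      set η : ℝ := min ε 1 / 2 with hη_def
      have hη : 0 < η := by
        have : 0 < min ε 1 := lt_min hε one_pos
        positivity
      have hηε : η < ε := by
        have : min ε 1 ≤ ε := min_le_left _ _
        have h0 : 0 < min ε 1 := lt_min hε one_pos
        rw [hη_def]; linarith
      have hη1 : η ≤ 1 := by
        have : min ε 1 ≤ 1 := min_le_right _ _
        rw [hη_def]; linarith
      obtain ⟨y, hyF, hy, h2⟩ := hcof x hx1 F hF η hη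
      set z : V := x + (2 : ℝ) • y with hz_def
      have hw : ‖(2 : ℝ) • y‖ = 2 := by
        rw [norm_smul, hy]; norm_num
      have hz1 : 1 ≤ ‖z‖ := by
        have h3 : (2 : ℝ) • y = z - x := by rw [hz_def]; abel
        have h4 : ‖(2 : ℝ) • y‖ ≤ ‖z‖ + ‖x‖ := by
          conv_lhs => rw [h3]
          exact norm_sub_le _ _
        linarith
      have hzpos : 0 < ‖z‖ := lt_of_lt_of_le one_pos hz1
      refine ⟨(‖z‖)⁻¹ • z, ?_, (2 : ℝ) • y, hF.smul_mem 2 hyF, ?_, ?_⟩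
      · show ‖(‖z‖)⁻¹ • z‖ = 1
        rw [norm_smul, norm_inv, norm_norm, inv_mul_cancel₀ hzpos.ne']
      · have h5 : (‖z‖)⁻¹ • z - x - (2 : ℝ) • y = ((‖z‖)⁻¹ - 1) • z := by
          rw [sub_smul, one_smul, hz_def]; abel
        have h6 : ‖((‖z‖)⁻¹ - 1) • z‖ = ‖z‖ - 1 := by
          rw [norm_smul, Real.norm_eq_abs, abs_sub_comm,
            abs_of_nonneg (sub_nonneg.mpr (inv_le_one_of_one_le₀ hz1)), sub_mul, one_mul,
            inv_mul_cancel₀ hzpos.ne']
        rw [h5, h6]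
        linarith
      · have h5 : (‖z‖)⁻¹ • z - x = (2 : ℝ) • y + ((‖z‖)⁻¹ - 1) • z := by
          rw [sub_smul, one_smul, hz_def]; abel
        have h6 : ‖((‖z‖)⁻¹ - 1) • z‖ = ‖z‖ - 1 := by
          rw [norm_smul, Real.norm_eq_abs, abs_sub_comm,
            abs_of_nonneg (sub_nonneg.mpr (inv_le_one_of_one_le₀ hz1)), sub_mul, one_mul,
            inv_mul_cancel₀ hzpos.ne']
        have h7 : ‖(2 : ℝ) • y‖ ≤ ‖(‖z‖)⁻¹ • z - x‖ + ‖((‖z‖)⁻¹ - 1) • z‖ := by
          have h8 : (2 : ℝ) • y = ((‖z‖)⁻¹ • z - x) - ((‖z‖)⁻¹ - 1) • z := by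
            rw [h5]; abel
          conv_lhs => rw [h8]
          exact norm_sub_le _ _
        rw [h6, hw] at h7
        linarith

end Generic

/-- The statement of S0167 with the two analytic inputs (P167A2 `daugavet_cof`, P167B
`midpoint_lower`, specialised to `↥E`) as explicit hypotheses. -/
theorem main_of (Ω : Type) [MeasurableSpace Ω] (P : MeasureTheory.Measure Ω)
    [MeasureTheory.IsProbabilityMeasure P]
    (E : Submodule ℝ (MeasureTheory.Lp ℝ 1 P)) (hcl : IsClosed (E : Set (MeasureTheory.Lp ℝ 1 P)))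
    (hinf : ¬ FiniteDimensional ℝ E)
    (hcof : ∀ x : E, ‖x‖ = 1 → ∀ F : Set E, IsCofG F → ∀ η : ℝ, 0 < η →
      ∃ y ∈ F, ‖y‖ = 1 ∧ ‖x + (2 : ℝ) • y‖ ≤ 1 + η)
    (hlow : ∀ x : E, ‖x‖ = 1 → ∀ t : ℝ, 0 < t → ∀ η : ℝ, 0 < η →
      ∃ F : Set E, IsCofG F ∧ ∀ y ∈ F, ‖y‖ = 1 →
        1 + t / 2 - η ≤ (‖x + t • y‖ + ‖x - t • y‖) / 2) :
    (∀ t : ℝ, 0 < t →
      (Crest.AnalysisR.L1Subspace.toRealBanach P E hcl).MidpointModulusGE
          (Crest.AnalysisR.L1Subspace.toRealBanach P E hcl).norm t (max (t / 2) (t - 1)) ∧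
        (Crest.AnalysisR.L1Subspace.toRealBanach P E hcl).MidpointModulusLE
          (Crest.AnalysisR.L1Subspace.toRealBanach P E hcl).norm t (max (t / 2) (t - 1)) ∧
        (Crest.AnalysisR.L1Subspace.toRealBanach P E hcl).OneSidedModulusGE
          (Crest.AnalysisR.L1Subspace.toRealBanach P E hcl).norm t (max 0 (t - 2)) ∧
        (Crest.AnalysisR.L1Subspace.toRealBanach P E hcl).OneSidedModulusLE
          (Crest.AnalysisR.L1Subspace.toRealBanach P E hcl).norm t (max 0 (t - 2))) ∧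
      ∀ N : E → ℝ, (Crest.AnalysisR.L1Subspace.toRealBanach P E hcl).IsEquivNorm N →
        ¬ (Crest.AnalysisR.L1Subspace.toRealBanach P E hcl).IsAUC N := by
  obtain ⟨h1, h2⟩ := generic (V := E) hinf hcof hlow
  refine ⟨fun t ht => ?_, fun N hN => ?_⟩
  · obtain ⟨ha, hb, hc, hd⟩ := h1 t ht
    exact ⟨ha, hb, hc, hd⟩
  · exact h2 N hN

/-- **PA167.** The statement of S0167 (same hypotheses and conclusion as the template), assembled
from `Helper29.daugavet_cof` (P167A2) and `Helper90.midpoint_lower` (P167B). -/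
theorem main (Ω : Type) [MeasurableSpace Ω] (P : MeasureTheory.Measure Ω)
    [MeasureTheory.IsProbabilityMeasure P]
    (E : Submodule ℝ (MeasureTheory.Lp ℝ 1 P)) (hcl : IsClosed (E : Set (MeasureTheory.Lp ℝ 1 P)))
    (hinf : ¬ FiniteDimensional ℝ E)
    (htb : Crest.AnalysisR.L1Subspace.UnitBallTotallyBoundedInMeasure P E)
    (hD : Crest.AnalysisR.L1Subspace.HasDaugavetProperty E) :
    (∀ t : ℝ, 0 < t →
      (Crest.AnalysisR.L1Subspace.toRealBanach P E hcl).MidpointModulusGE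
          (Crest.AnalysisR.L1Subspace.toRealBanach P E hcl).norm t (max (t / 2) (t - 1)) ∧
        (Crest.AnalysisR.L1Subspace.toRealBanach P E hcl).MidpointModulusLE
          (Crest.AnalysisR.L1Subspace.toRealBanach P E hcl).norm t (max (t / 2) (t - 1)) ∧
        (Crest.AnalysisR.L1Subspace.toRealBanach P E hcl).OneSidedModulusGE
          (Crest.AnalysisR.L1Subspace.toRealBanach P E hcl).norm t (max 0 (t - 2)) ∧
        (Crest.AnalysisR.L1Subspace.toRealBanach P E hcl).OneSidedModulusLE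
          (Crest.AnalysisR.L1Subspace.toRealBanach P E hcl).norm t (max 0 (t - 2))) ∧
      ∀ N : E → ℝ, (Crest.AnalysisR.L1Subspace.toRealBanach P E hcl).IsEquivNorm N →
        ¬ (Crest.AnalysisR.L1Subspace.toRealBanach P E hcl).IsAUC N :=
  main_of Ω P E hcl hinf
    (fun x hx F hF η hη => Crest.Agent.S0167.Helper29.daugavet_cof hD x hx F hF η hη)
    (fun x hx t ht η hη => Crest.Agent.S0167.Helper90.midpoint_lower Ω P E htb x hx t ht η hη)

end Crest.Agent.S0167.Helper47
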