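import Mathlib

/-!
# P167A1 (row 125, S0167): convex combinations of small slices in finite dimension

Main result: `Crest.Agent.S0167.Helper91.exists_slices_near`.

Auxiliary results of independent use:
* `isCompact_convexHull_of_finiteDimensional`: in a finite-dimensional real normed space the convex
  hull of a compact set is compact (Carathéodory).
* `exists_slice_of_mem_extremePoints`: an extreme point of a compact convex set in a
  finite-dimensional space has slices of arbitrarily small diameter (Choquet's lemma).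
-/

namespace Crest.Agent.S0167.Helper91

open Set

/-- In a finite-dimensional real normed space, the convex hull of a compact set is compact. -/
theorem isCompact_convexHull_of_finiteDimensional {Q : Type*} [NormedAddCommGroup Q]
    [NormedSpace ℝ Q] [FiniteDimensional ℝ Q] {C : Set Q} (hC : IsCompact C) :
    IsCompact (convexHull ℝ C) := by
  classical
  set d := Module.finrank ℝ Q with hd
  let Φ : (Fin (d + 1) → ℝ) × (Fin (d + 1) → Q) → Q := fun p => ∑ i, p.1 i • p.2 i
  have hΦ : Continuous Φ := by
    apply continuous_finsetSum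
    intro i _
    exact ((continuous_apply i).comp continuous_fst).smul ((continuous_apply i).comp continuous_snd)
  have hcomp : IsCompact ((stdSimplex ℝ (Fin (d + 1))) ×ˢ (Set.univ.pi fun _ : Fin (d + 1) => C)) :=
    (isCompact_stdSimplex ℝ (Fin (d + 1))).prod (isCompact_univ_pi fun _ => hC)
  have himg : convexHull ℝ C =
      Φ '' ((stdSimplex ℝ (Fin (d + 1))) ×ˢ (Set.univ.pi fun _ : Fin (d + 1) => C)) := by
    apply Subset.antisymm
    · intro x hx
      obtain ⟨ι, _, z, w, hz, hai, hw, hw1, hxz⟩ := eq_pos_convex_span_of_mem_convexHull hx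
      have hcard : Fintype.card ι ≤ Fintype.card (Fin (d + 1)) := by
        have h1 := hai.card_le_finrank_succ
        have h2 : Module.finrank ℝ (vectorSpan ℝ (Set.range z)) ≤ d :=
          Submodule.finrank_le _
        simp only [Fintype.card_fin]
        omega
      obtain ⟨f⟩ := Function.Embedding.nonempty_of_card_le hcard
      have hne : Nonempty ι := by
        by_contra hne
        rw [not_nonempty_iff] at hne
        simp at hw1
      obtain ⟨i0⟩ := hne
      have hw'1 : ∀ i, Function.extend f w 0 (f i) = w i := fun i =>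
        f.injective.extend_apply w 0 i
      have hw'2 : ∀ j, (¬ ∃ i, f i = j) → Function.extend f w 0 j = 0 := fun j hj => by
        rw [Function.extend_apply' _ _ _ hj]; rfl
      have hz'1 : ∀ i, Function.extend f z (fun _ => z i0) (f i) = z i := fun i =>
        f.injective.extend_apply z _ i
      have hz'2 : ∀ j, (¬ ∃ i, f i = j) → Function.extend f z (fun _ => z i0) j = z i0 :=
        fun j hj => by rw [Function.extend_apply' _ _ _ hj]
      refine ⟨(Function.extend f w 0, Function.extend f z (fun _ => z i0)), ⟨⟨?_, ?_⟩, ?_⟩, ?_⟩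
      · intro j
        show 0 ≤ Function.extend f w 0 j
        by_cases hj : ∃ i, f i = j
        · obtain ⟨i, rfl⟩ := hj
          rw [hw'1]
          exact (hw i).le
        · rw [hw'2 j hj]
      · show ∑ j, Function.extend f w 0 j = 1
        rw [← hw1]
        symm
        apply Fintype.sum_of_injective f f.injective
        · intro j hj
          exact hw'2 j (by simpa using hj)
        · intro i
          rw [hw'1]
      · intro j _
        show Function.extend f z (fun _ => z i0) j ∈ C
        by_cases hj : ∃ i, f i = j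
        · obtain ⟨i, rfl⟩ := hj
          rw [hz'1]
          exact hz (mem_range_self i)
        · rw [hz'2 j hj]
          exact hz (mem_range_self i0)
      · show ∑ j, Function.extend f w 0 j • Function.extend f z (fun _ => z i0) j = x
        rw [← hxz]
        symm
        apply Fintype.sum_of_injective f f.injective
        · intro j hj
          rw [hw'2 j (by simpa using hj), zero_smul]
        · intro i
          rw [hw'1, hz'1]
    · rintro _ ⟨⟨w, z⟩, ⟨hw, hz⟩, rfl⟩
      exact (convex_convexHull ℝ C).sum_mem (fun i _ => hw.1 i) hw.2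
        (fun i _ => subset_convexHull ℝ C (hz i (mem_univ i)))
  rw [himg]
  exact hcomp.image hΦ

/-- **Choquet's lemma**, finite-dimensional version: an extreme point `e` of a compact convex set
`K` has slices `{q ∈ K | α < ψ q}` of arbitrarily small diameter. -/
theorem exists_slice_of_mem_extremePoints {Q : Type*} [NormedAddCommGroup Q] [NormedSpace ℝ Q]
    [FiniteDimensional ℝ Q] {K : Set Q} (hK : IsCompact K) (hKc : Convex ℝ K) {e : Q}
    (he : e ∈ K.extremePoints ℝ) {ε : ℝ} (hε : 0 < ε) :
    ∃ (ψ : Q →L[ℝ] ℝ) (α : ℝ), α < ψ e ∧ ∀ q ∈ K, α < ψ q → ‖q - e‖ < ε := by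
  set C : Set Q := K \ Metric.ball e ε with hCdef
  have hCcomp : IsCompact C := hK.diff Metric.isOpen_ball
  have hCsub : C ⊆ K \ {e} := by
    intro q hq
    refine ⟨hq.1, ?_⟩
    rintro rfl
    exact hq.2 (Metric.mem_ball_self hε)
  have heC : e ∉ convexHull ℝ C := by
    intro h
    have h2 := (hKc.mem_extremePoints_iff_mem_sdiff_convexHull_sdiff.1 he).2
    exact h2 (convexHull_mono hCsub h)
  have hclosed : IsClosed (convexHull ℝ C) :=
    (isCompact_convexHull_of_finiteDimensional hCcomp).isClosed
  obtain ⟨f, u, hfu, hu⟩ :=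
    geometric_hahn_banach_closed_point (convex_convexHull ℝ C) hclosed heC
  refine ⟨f, u, hu, ?_⟩
  intro q hqK hq
  by_contra hcon
  have hqC : q ∈ C := ⟨hqK, fun hb => hcon (by simpa [dist_eq_norm] using hb)⟩
  exact absurd (hfu q (subset_convexHull ℝ C hqC)) (not_lt.2 hq.le)

/-- **P167A1.** Every point of a compact convex set in a finite-dimensional space is within `ε` of
a finite convex combination of points `e i ∈ K`, each of which lies in a slice of `K` of radius
`< ε` around it. -/
theorem exists_slices_near {Q : Type*} [NormedAddCommGroup Q] [NormedSpace ℝ Q]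
    [FiniteDimensional ℝ Q] (K : Set Q) (hK : IsCompact K) (hKc : Convex ℝ K) (p : Q) (hp : p ∈ K)
    (ε : ℝ) (hε : 0 < ε) :
    ∃ (r : ℕ) (w : Fin r → ℝ) (ψ : Fin r → Q →L[ℝ] ℝ) (α : Fin r → ℝ) (e : Fin r → Q),
      (∀ i, 0 ≤ w i) ∧ ∑ i, w i = 1 ∧ (∀ i, e i ∈ K ∧ α i < ψ i (e i)) ∧
      (∀ i, ∀ q ∈ K, α i < ψ i q → ‖q - e i‖ < ε) ∧ ‖p - ∑ i, w i • e i‖ < ε := by
  classical
  have hp' : p ∈ closure (convexHull ℝ (K.extremePoints ℝ)) := by
    rw [closure_convexHull_extremePoints hK hKc]
    exact hp
  obtain ⟨p', hp'mem, hp'dist⟩ := Metric.mem_closure_iff.1 hp' ε hε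
  obtain ⟨ι, _, w, z, hw0, hw1, hz, hsum⟩ := mem_convexHull_iff_exists_fintype.1 hp'mem
  let eqv := Fintype.equivFin ι
  have hsl : ∀ i : ι, ∃ (ψ : Q →L[ℝ] ℝ) (α : ℝ), α < ψ (z i) ∧
      ∀ q ∈ K, α < ψ q → ‖q - z i‖ < ε := fun i =>
    exists_slice_of_mem_extremePoints hK hKc (hz i) hε
  choose ψ α hα hψ using hsl
  refine ⟨Fintype.card ι, fun j => w (eqv.symm j), fun j => ψ (eqv.symm j),
    fun j => α (eqv.symm j), fun j => z (eqv.symm j), fun j => hw0 _, ?_, ?_, ?_, ?_⟩
  · rw [← hw1]
    exact Equiv.sum_comp eqv.symm w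
  · intro j
    exact ⟨(hz _).1, hα _⟩
  · intro j q hq hlt
    exact hψ _ q hq hlt
  · have : ∑ j, w (eqv.symm j) • z (eqv.symm j) = p' := by
      rw [← hsum]
      exact Equiv.sum_comp eqv.symm (fun i => w i • z i)
    rw [this, ← dist_eq_norm]
    exact hp'dist

end Crest.Agent.S0167.Helper91
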