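import Mathlib
import Crest.Prelude.Def_DaugavetL1
import Crest.Agent.Lib.S0166.Helper32Core
import Crest.Agent.Lib.S0167.Helper91Slices

/-!
Package P167A2 (row 125, S0167): the finite-codimensional Shvidkoy lemma for Daugavet spaces.

In a real normed space with the Daugavet property, for a unit vector `x`, a closed
finite-codimensional subspace `F` and `η > 0` there is a unit vector `y ∈ F` with
`‖x + 2 • y‖ ≤ 1 + η`.
-/

set_option autoImplicit false

namespace Crest.Agent.S0167.Helper74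

open Crest.AnalysisR Crest.AnalysisR.L1Subspace Crest.Agent.S0166.Helper32

variable {V : Type*} [NormedAddCommGroup V] [NormedSpace ℝ V]

/-- (a) Slice lemma: a slice of the unit ball contains a point almost at distance `2` from `-u`. -/
theorem h74_slice (hD : HasDaugavetProperty V) (u : V) (hu : ‖u‖ = 1) (φ : V →L[ℝ] ℝ) (α : ℝ)
    (z0 : V) (hz0 : ‖z0‖ ≤ 1) (hα : α < φ z0) (δ : ℝ) (hδ : 0 < δ) :
    ∃ z, ‖z‖ ≤ 1 ∧ α < φ z ∧ 2 - δ < ‖u + z‖ := by
  by_cases hφ : φ = 0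
  · subst hφ
    refine ⟨u, hu.le, by simpa using hα, ?_⟩
    have h2 : u + u = (2 : ℝ) • u := (two_smul ℝ u).symm
    rw [h2, norm_smul, hu]
    norm_num
    exact hδ
  · have hφn : 0 < ‖φ‖ := norm_pos_iff.mpr hφ
    have hαφ : α < ‖φ‖ := by
      have h1 : φ z0 ≤ ‖φ‖ * ‖z0‖ := (le_abs_self _).trans (φ.le_opNorm z0)
      have h2 : ‖φ‖ * ‖z0‖ ≤ ‖φ‖ * 1 := mul_le_mul_of_nonneg_left hz0 hφn.le
      linarith
    -- the auxiliary small parameter
    obtain ⟨δ', hδ'pos, hδ'1, hδ'2⟩ : ∃ δ' : ℝ, 0 < δ' ∧ 2 * δ' ≤ δ ∧ α < ‖φ‖ * (1 - δ') := by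
      refine ⟨min (δ / 2) ((‖φ‖ - α) / (2 * ‖φ‖)), ?_, ?_, ?_⟩
      · exact lt_min (by positivity) (div_pos (by linarith) (by positivity))
      · have := min_le_left (δ / 2) ((‖φ‖ - α) / (2 * ‖φ‖))
        linarith
      · have h1 := min_le_right (δ / 2) ((‖φ‖ - α) / (2 * ‖φ‖))
        have h2 : ‖φ‖ * ((‖φ‖ - α) / (2 * ‖φ‖)) = (‖φ‖ - α) / 2 := by
          field_simp
        have h3 : ‖φ‖ * min (δ / 2) ((‖φ‖ - α) / (2 * ‖φ‖)) ≤ (‖φ‖ - α) / 2 := by
          rw [← h2]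
          exact mul_le_mul_of_nonneg_left h1 hφn.le
        linarith
    let φ' : V →L[ℝ] ℝ := (‖φ‖⁻¹ : ℝ) • φ
    have hφ' : ‖φ'‖ = 1 := by
      show ‖(‖φ‖⁻¹ : ℝ) • φ‖ = 1
      rw [norm_smul, norm_inv, norm_norm, inv_mul_cancel₀ hφn.ne']
    have hφ'app : ∀ z, φ' z = ‖φ‖⁻¹ * φ z := fun z => rfl
    have h2 : ‖ContinuousLinearMap.id ℝ V + φ'.smulRight u‖ = 2 := by
      rw [hD φ' u, ContinuousLinearMap.norm_smulRight_apply, hφ', hu]
      norm_num
    have hex : ∃ z, ‖z‖ = 1 ∧ 2 - δ' < ‖z + φ' z • u‖ := by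
      by_contra hcon
      push Not at hcon
      have h3 : ‖ContinuousLinearMap.id ℝ V + φ'.smulRight u‖ ≤ 2 - δ' := by
        refine ContinuousLinearMap.opNorm_le_of_unit_norm ?_ (fun z hz => ?_)
        · have := hcon u hu
          exact (norm_nonneg _).trans this
        · simpa using hcon z hz
      linarith
    obtain ⟨z1, hz1, hz1'⟩ := hex
    -- replace `z1` by `-z1` if needed, so that `0 ≤ φ' z`
    obtain ⟨z, hz, hzpos, hz'⟩ : ∃ z, ‖z‖ = 1 ∧ 0 ≤ φ' z ∧ 2 - δ' < ‖z + φ' z • u‖ := by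
      rcases le_total 0 (φ' z1) with h | h
      · exact ⟨z1, hz1, h, hz1'⟩
      · refine ⟨-z1, by rwa [norm_neg], by simpa using h, ?_⟩
        have : -z1 + φ' (-z1) • u = -(z1 + φ' z1 • u) := by
          rw [map_neg, neg_smul, neg_add]
        rw [this, norm_neg]
        exact hz1'
    have hle : φ' z ≤ 1 := by
      have := φ'.le_opNorm z
      rw [hφ', hz, one_mul] at this
      exact (le_abs_self _).trans this
    have hgt : 1 - δ' < φ' z := by
      have h4 : ‖z + φ' z • u‖ ≤ ‖z‖ + ‖φ' z • u‖ := norm_add_le _ _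
      rw [norm_smul, hu, mul_one, Real.norm_eq_abs, abs_of_nonneg hzpos, hz] at h4
      linarith
    refine ⟨z, hz.le, ?_, ?_⟩
    · have h5 : φ z = ‖φ‖ * φ' z := by
        rw [hφ'app]
        field_simp
      rw [h5]
      have : ‖φ‖ * (1 - δ') < ‖φ‖ * φ' z := mul_lt_mul_of_pos_left hgt hφn
      linarith
    · have h6 : u + z = (z + φ' z • u) + (1 - φ' z) • u := by
        rw [sub_smul, one_smul]
        abel
      have h7 : ‖z + φ' z • u‖ ≤ ‖u + z‖ + ‖(1 - φ' z) • u‖ := by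
        have : z + φ' z • u = (u + z) - (1 - φ' z) • u := by
          rw [h6]; abel
        rw [this]
        exact norm_sub_le _ _
      rw [norm_smul, hu, mul_one, Real.norm_eq_abs, abs_of_nonneg (by linarith)] at h7
      linarith

/-- (b) Almost-additivity of the norm propagates to positive combinations. -/
theorem h74_combine (a z : V) (ha : ‖a‖ = 1) (hz : ‖z‖ ≤ 1) (δ : ℝ) (h : 2 - δ ≤ ‖a + z‖)
    (s r : ℝ) (hs : 0 ≤ s) (hr : 0 ≤ r) :
    s + r - max s r * δ ≤ ‖s • a + r • z‖ := by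
  rcases le_total r s with hrs | hrs
  · rw [max_eq_left hrs]
    have h1 : s • a + r • z = s • (a + z) - (s - r) • z := by
      rw [smul_add, sub_smul]; abel
    have h2 : ‖s • (a + z)‖ - ‖(s - r) • z‖ ≤ ‖s • a + r • z‖ := by
      rw [h1]; exact norm_sub_norm_le _ _
    rw [norm_smul, norm_smul, Real.norm_eq_abs, Real.norm_eq_abs, abs_of_nonneg hs,
      abs_of_nonneg (sub_nonneg.mpr hrs)] at h2
    have h3 : s * (2 - δ) ≤ s * ‖a + z‖ := mul_le_mul_of_nonneg_left h hs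
    have h4 : (s - r) * ‖z‖ ≤ (s - r) * 1 := mul_le_mul_of_nonneg_left hz (sub_nonneg.mpr hrs)
    nlinarith
  · rw [max_eq_right hrs]
    have h1 : s • a + r • z = r • (a + z) - (r - s) • a := by
      rw [smul_add, sub_smul]; abel
    have h2 : ‖r • (a + z)‖ - ‖(r - s) • a‖ ≤ ‖s • a + r • z‖ := by
      rw [h1]; exact norm_sub_norm_le _ _
    rw [norm_smul, norm_smul, Real.norm_eq_abs, Real.norm_eq_abs, abs_of_nonneg hr,
      abs_of_nonneg (sub_nonneg.mpr hrs), ha] at h2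
    have h3 : r * (2 - δ) ≤ r * ‖a + z‖ := mul_le_mul_of_nonneg_left h hr
    nlinarith

/-- (d) Iteration: points of finitely many slices can be chosen one at a time so that the norm of
the weighted sum added to `u0` is almost additive. -/
theorem h74_iterate (hD : HasDaugavetProperty V) {ι : Type*} [Fintype ι] [DecidableEq ι]
    (w : ι → ℝ) (hw : ∀ i, 0 ≤ w i) (φ : ι → V →L[ℝ] ℝ) (α : ι → ℝ)
    (hsl : ∀ i, ∃ z0 : V, ‖z0‖ ≤ 1 ∧ α i < φ i z0)
    (u0 : V) (M : ℝ) (hM : ‖u0‖ + ∑ i, w i ≤ M) (δ : ℝ) (hδ : 0 < δ)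
    (hsmall : (Fintype.card ι : ℝ) * (M * δ) < ‖u0‖) (s : Finset ι) :
    ∃ z : ι → V, (∀ i, ‖z i‖ ≤ 1 ∧ α i < φ i (z i)) ∧
      ‖u0‖ + ∑ i ∈ s, w i - (s.card : ℝ) * (M * δ) ≤ ‖u0 + ∑ i ∈ s, w i • z i‖ := by
  have hM0 : 0 ≤ M := by
    have h1 : 0 ≤ ∑ i, w i := Finset.sum_nonneg fun i _ => hw i
    linarith [norm_nonneg u0]
  have hMδ : 0 ≤ M * δ := mul_nonneg hM0 hδ.le
  induction s using Finset.induction_on with
  | empty =>
    choose z0 hz0 using hsl
    exact ⟨z0, hz0, by simp⟩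
  | insert i s his ih =>
    obtain ⟨z, hz, hbound⟩ := ih
    set u : V := u0 + ∑ j ∈ s, w j • z j with hu
    have hcard : (s.card : ℝ) + 1 ≤ Fintype.card ι := by
      have h1 : (insert i s).card ≤ Fintype.card ι := Finset.card_le_univ _
      rw [Finset.card_insert_of_notMem his] at h1
      exact_mod_cast h1
    have hsum_nonneg : 0 ≤ ∑ j ∈ s, w j := Finset.sum_nonneg fun j _ => hw j
    have hupos : 0 < ‖u‖ := by
      have h1 : (s.card : ℝ) * (M * δ) ≤ (Fintype.card ι : ℝ) * (M * δ) :=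
        mul_le_mul_of_nonneg_right (by linarith) hMδ
      linarith
    have hsub : ∑ j ∈ s, w j + w i ≤ ∑ j, w j := by
      have h1 : ∑ j ∈ insert i s, w j ≤ ∑ j, w j :=
        Finset.sum_le_sum_of_subset_of_nonneg (Finset.subset_univ _) fun j _ _ => hw j
      rw [Finset.sum_insert his] at h1
      linarith
    have huM : ‖u‖ ≤ M := by
      have h1 : ‖∑ j ∈ s, w j • z j‖ ≤ ∑ j ∈ s, w j := by
        refine (norm_sum_le _ _).trans (Finset.sum_le_sum fun j _ => ?_)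
        rw [norm_smul, Real.norm_eq_abs, abs_of_nonneg (hw j)]
        exact mul_le_of_le_one_right (hw j) (hz j).1
      have h2 : ‖u‖ ≤ ‖u0‖ + ‖∑ j ∈ s, w j • z j‖ := norm_add_le _ _
      linarith [hw i]
    have hwM : w i ≤ M := by linarith [norm_nonneg u0]
    set a : V := ‖u‖⁻¹ • u with ha
    have hanorm : ‖a‖ = 1 := by
      rw [ha, norm_smul, norm_inv, norm_norm, inv_mul_cancel₀ hupos.ne']
    have hua : ‖u‖ • a = u := by
      rw [ha, smul_smul, mul_inv_cancel₀ hupos.ne', one_smul]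
    obtain ⟨z0, hz0, hz0'⟩ := hsl i
    obtain ⟨z', hz'1, hz'2, hz'3⟩ := h74_slice hD a hanorm (φ i) (α i) z0 hz0 hz0' δ hδ
    have hcomb := h74_combine a z' hanorm hz'1 δ hz'3.le ‖u‖ (w i) hupos.le (hw i)
    rw [hua] at hcomb
    have hmax : max ‖u‖ (w i) * δ ≤ M * δ :=
      mul_le_mul_of_nonneg_right (max_le huM hwM) hδ.le
    refine ⟨Function.update z i z', fun j => ?_, ?_⟩
    · by_cases hj : j = i
      · subst hj
        simp only [Function.update_self]
        exact ⟨hz'1, hz'2⟩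
      · rw [Function.update_of_ne hj]
        exact hz j
    · have hsum : ∑ j ∈ insert i s, w j • Function.update z i z' j
          = w i • z' + ∑ j ∈ s, w j • z j := by
        rw [Finset.sum_insert his, Function.update_self]
        congr 1
        refine Finset.sum_congr rfl fun j hj => ?_
        have hji : j ≠ i := fun h => his (h ▸ hj)
        rw [Function.update_of_ne hji]
      have heq : u0 + (w i • z' + ∑ j ∈ s, w j • z j) = u + w i • z' := by
        rw [hu]; abel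
      rw [hsum, heq, Finset.sum_insert his, Finset.card_insert_of_notMem his]
      push_cast
      linarith

/-- Core of the lemma, with the finite-dimensional convex geometry (package P167A1, applied in the
quotient `V ⧸ S`) as a hypothesis. -/
theorem h74_core (hD : HasDaugavetProperty V) (x : V) (hx : ‖x‖ = 1) (S : Submodule ℝ V)
    [hS : IsClosed (S : Set V)] [FiniteDimensional ℝ (V ⧸ S)]
    (hsl : ∀ (K : Set (V ⧸ S)), IsCompact K → Convex ℝ K → ∀ p ∈ K, ∀ ε : ℝ, 0 < ε →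
      ∃ (r : ℕ) (w : Fin r → ℝ) (ψ : Fin r → (V ⧸ S) →L[ℝ] ℝ) (α : Fin r → ℝ)
        (e : Fin r → V ⧸ S),
        (∀ i, 0 ≤ w i) ∧ ∑ i, w i = 1 ∧ (∀ i, e i ∈ K ∧ α i < ψ i (e i)) ∧
        (∀ i, ∀ q ∈ K, α i < ψ i q → ‖q - e i‖ < ε) ∧ ‖p - ∑ i, w i • e i‖ < ε)
    (η : ℝ) (hη : 0 < η) : ∃ y ∈ S, ‖y‖ = 1 ∧ ‖x + (2 : ℝ) • y‖ ≤ 1 + η := by
  obtain ⟨ε, hε, hε1, hε2⟩ : ∃ ε : ℝ, 0 < ε ∧ ε ≤ 1 / 2 ∧ 5 * ε ≤ η :=
    ⟨min (1 / 2) (η / 5), lt_min (by norm_num) (by positivity), min_le_left _ _,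
      by linarith [min_le_right (1 / 2 : ℝ) (η / 5)]⟩
  let π : V →L[ℝ] V ⧸ S := S.mkQL
  have hπ : ∀ v : V, ‖π v‖ ≤ ‖v‖ := fun v => Submodule.Quotient.norm_mk_le S v
  set K : Set (V ⧸ S) := closure (π '' Metric.closedBall (0 : V) 1) with hK
  have hKmem : ∀ v : V, ‖v‖ ≤ 1 → π v ∈ K := fun v hv =>
    subset_closure ⟨v, mem_closedBall_zero_iff.mpr hv, rfl⟩
  have : ProperSpace (V ⧸ S) := FiniteDimensional.proper_real _
  have hKsub : K ⊆ Metric.closedBall (0 : V ⧸ S) 1 := by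
    refine closure_minimal ?_ Metric.isClosed_closedBall
    rintro _ ⟨v, hv, rfl⟩
    rw [mem_closedBall_zero_iff] at hv ⊢
    exact (hπ v).trans hv
  have hKc : IsCompact K :=
    Metric.isCompact_of_isClosed_isBounded isClosed_closure
      (Metric.isBounded_closedBall.subset hKsub)
  have hKconv : Convex ℝ K := by
    have h1 : Convex ℝ (π '' Metric.closedBall (0 : V) 1) :=
      (convex_closedBall (0 : V) 1).linear_image π.toLinearMap
    exact h1.closure
  obtain ⟨r, w, ψ, α, e, hw, hwsum, he, hnear, hp⟩ :=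
    hsl K hKc hKconv (π x) (hKmem x hx.le) ε hε
  -- the slices are nonempty
  have hslice : ∀ i, ∃ z0 : V, ‖z0‖ ≤ 1 ∧ α i < ((ψ i).comp π) z0 := by
    intro i
    have hopen : IsOpen {q : V ⧸ S | α i < ψ i q} :=
      isOpen_lt continuous_const (ψ i).continuous
    obtain ⟨q, hq1, hq2⟩ := mem_closure_iff.mp (he i).1 _ hopen (he i).2
    obtain ⟨z0, hz0, rfl⟩ := hq2
    exact ⟨z0, mem_closedBall_zero_iff.mp hz0, hq1⟩
  -- the iteration
  have hr0 : (0 : ℝ) ≤ r := Nat.cast_nonneg r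
  set δ : ℝ := ε / (2 * (r + 1)) with hδdef
  have hδ : 0 < δ := by positivity
  have hrδ : (r : ℝ) * (2 * δ) ≤ ε := by
    have h1 : (r : ℝ) * (2 * δ) = ε * (r / (r + 1)) := by
      rw [hδdef]; field_simp
    rw [h1]
    have h2 : (r : ℝ) / (r + 1) ≤ 1 := by
      rw [div_le_one (by positivity)]; linarith
    nlinarith
  obtain ⟨zz, hzz, hbound⟩ := h74_iterate hD w hw (fun i => (ψ i).comp π) α hslice (-x) 2
    (by rw [norm_neg, hx, hwsum]; norm_num) δ hδ
    (by rw [norm_neg, hx, Fintype.card_fin]; linarith) Finset.univ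
  rw [norm_neg, hx, hwsum, Finset.card_univ, Fintype.card_fin] at hbound
  set z : V := ∑ i, w i • zz i with hz
  have hznorm : ‖z‖ ≤ 1 := by
    have h1 : ‖z‖ ≤ ∑ i, w i := by
      refine (norm_sum_le _ _).trans (Finset.sum_le_sum fun j _ => ?_)
      rw [norm_smul, Real.norm_eq_abs, abs_of_nonneg (hw j)]
      exact mul_le_of_le_one_right (hw j) (hzz j).1
    linarith
  have hzx : 2 - ε ≤ ‖z - x‖ := by
    have h1 : -x + z = z - x := by abel
    rw [h1] at hbound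
    linarith
  -- the image of `z` in the quotient is close to that of `x`
  have hπz : π z = ∑ i, w i • π (zz i) := by
    rw [hz, map_sum]
    exact Finset.sum_congr rfl fun i _ => by rw [map_smul]
  have hclose : ‖π z - ∑ i, w i • e i‖ ≤ ε := by
    rw [hπz, ← Finset.sum_sub_distrib]
    have h1 : ∀ i, ‖w i • π (zz i) - w i • e i‖ ≤ w i * ε := by
      intro i
      rw [← smul_sub, norm_smul, Real.norm_eq_abs, abs_of_nonneg (hw i)]
      exact mul_le_mul_of_nonneg_left (hnear i (π (zz i)) (hKmem _ (hzz i).1) (hzz i).2).le (hw i)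
    calc ‖∑ i, (w i • π (zz i) - w i • e i)‖ ≤ ∑ i, ‖w i • π (zz i) - w i • e i‖ :=
          norm_sum_le _ _
      _ ≤ ∑ i, w i * ε := Finset.sum_le_sum fun i _ => h1 i
      _ = ε := by rw [← Finset.sum_mul, hwsum, one_mul]
  have hquot : ‖π (z - x)‖ < 2 * ε := by
    have h1 : π (z - x) = (π z - ∑ i, w i • e i) - (π x - ∑ i, w i • e i) := by
      rw [map_sub]; abel
    rw [h1]
    have h2 := norm_sub_le (π z - ∑ i, w i • e i) (π x - ∑ i, w i • e i)
    linarith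
  obtain ⟨m, hm, hmn⟩ := Submodule.Quotient.norm_mk_lt (π (z - x)) (sub_pos.mpr hquot)
  have hmn' : ‖m‖ < 2 * ε := by linarith
  set f : V := z - x - m with hf
  have hfS : f ∈ S := by
    rw [← Submodule.Quotient.mk_eq_zero S, hf, Submodule.Quotient.mk_sub, hm]
    exact sub_self _
  have hfl : 2 - 3 * ε < ‖f‖ := by
    have h1 : ‖z - x‖ - ‖m‖ ≤ ‖f‖ := by
      rw [hf]; exact norm_sub_norm_le _ _
    linarith
  have hfu : ‖f‖ < 2 + 2 * ε := by
    have h1 : ‖f‖ ≤ ‖z - x‖ + ‖m‖ := by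
      rw [hf]; exact norm_sub_le _ _
    have h2 : ‖z - x‖ ≤ ‖z‖ + ‖x‖ := norm_sub_le _ _
    linarith
  have hfpos : 0 < ‖f‖ := by linarith
  have hxf : ‖x + f‖ ≤ 1 + 2 * ε := by
    have h1 : x + f = z - m := by
      rw [hf]; abel
    rw [h1]
    have h2 : ‖z - m‖ ≤ ‖z‖ + ‖m‖ := norm_sub_le _ _
    linarith
  refine ⟨‖f‖⁻¹ • f, S.smul_mem _ hfS, ?_, ?_⟩
  · rw [norm_smul, norm_inv, norm_norm, inv_mul_cancel₀ hfpos.ne']
  · have h1 : x + (2 : ℝ) • ‖f‖⁻¹ • f = (x + f) + (2 * ‖f‖⁻¹ - 1) • f := by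
      rw [sub_smul, one_smul, smul_smul]; abel
    rw [h1]
    have h2 : ‖(2 * ‖f‖⁻¹ - 1) • f‖ = |2 - ‖f‖| := by
      rw [norm_smul, Real.norm_eq_abs]
      have h3 : (2 * ‖f‖⁻¹ - 1) = (2 - ‖f‖) / ‖f‖ := by
        field_simp
      rw [h3, abs_div, abs_of_pos hfpos (a := ‖f‖), div_mul_cancel₀ _ hfpos.ne']
    have h4 : |2 - ‖f‖| ≤ 3 * ε := by
      rw [abs_le]; constructor <;> linarith
    have h5 := norm_add_le (x + f) ((2 * ‖f‖⁻¹ - 1) • f)
    linarith

/-- **Package P167A2** (finite-codimensional Shvidkoy lemma): in a space with the Daugavet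
property, every closed finite-codimensional subspace `F` contains, for each unit vector `x` and
`η > 0`, a unit vector `y` with `‖x + 2 • y‖ ≤ 1 + η`. -/
theorem daugavet_cof {V : Type*} [NormedAddCommGroup V] [NormedSpace ℝ V]
    (hD : Crest.AnalysisR.L1Subspace.HasDaugavetProperty V) (x : V) (hx : ‖x‖ = 1) (F : Set V)
    (hF : Crest.Agent.S0166.Helper32.IsCofG F) (η : ℝ) (hη : 0 < η) :
    ∃ y ∈ F, ‖y‖ = 1 ∧ ‖x + (2 : ℝ) • y‖ ≤ 1 + η := by
  obtain ⟨S, rfl, hSc, hSf⟩ := hF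
  have hS : IsClosed (S : Set V) := hSc
  exact h74_core hD x hx S
    (fun K hK hKc p hp ε hε => Crest.Agent.S0167.Helper91.exists_slices_near K hK hKc p hp ε hε)
    η hη

end Crest.Agent.S0167.Helper74
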